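import Vale.Agent.P200L.Defs
import Mathlib.Data.Finsupp.Lex
import Mathlib.Data.Set.Card

/-! The lex-plus-powers subspace of an ideal. -/

namespace Vale.Agent.P200L

open MvPolynomial

variable {K : Type*} [Field K] {n c : ℕ}

/-- The ideal `P = (x_1^{a_1}, …, x_c^{a_c})`. -/
noncomputable def pw (K : Type*) [Field K] (hc : c ≤ n) (a : Fin c → ℕ) :
    Ideal (MvPolynomial (Fin n) K) :=
  Ideal.span (Set.range fun i => X (Fin.castLE hc i) ^ a i)

/-- The degree `d` part `I_d` of an ideal. -/
noncomputable def part (I : Ideal (MvPolynomial (Fin n) K)) (d : ℕ) :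
    Submodule K (MvPolynomial (Fin n) K) :=
  I.restrictScalars K ⊓ homogeneousSubmodule (Fin n) K d

/-- Exponent vectors of the degree `d` monomials outside `P`. -/
def outside (P : Ideal (MvPolynomial (Fin n) K)) (d : ℕ) : Set (Fin n →₀ ℕ) :=
  {β | β.degree = d ∧ monomial β (1 : K) ∉ P}

/-- The `q` lexicographically greatest (for `x_1 > ⋯ > x_n`) degree `d` monomials outside `P`:
those with fewer than `q` greater ones. -/
def top (P : Ideal (MvPolynomial (Fin n) K)) (d q : ℕ) : Set (Fin n →₀ ℕ) :=
  {β | β ∈ outside P d ∧ {γ | γ ∈ outside P d ∧ toLex β < toLex γ}.ncard < q}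

/-- `J_d`: the span of `P_d` and the `q_d = dim I_d - dim P_d` greatest monomials outside `P`. -/
noncomputable def lppPart (I P : Ideal (MvPolynomial (Fin n) K)) (d : ℕ) :
    Submodule K (MvPolynomial (Fin n) K) :=
  part P d ⊔ Submodule.span K ((fun β => monomial β (1 : K)) ''
    top P d (Module.finrank K (part I d) - Module.finrank K (part P d)))

/-- The graded subspace `J = ⊕ J_d`. -/
noncomputable def lpp (I P : Ideal (MvPolynomial (Fin n) K)) :
    Submodule K (MvPolynomial (Fin n) K) :=
  ⨆ d, lppPart I P d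

end Vale.Agent.P200L
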