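import Vale.Agent.P200L.Fr
import Vale.Agent.P200M.Top2

/-! Betti numbers for regular sequences of equal degrees. -/

namespace Vale.Agent.P200L

open MvPolynomial TensorProduct P200E

universe u

open P200 in
theorem Top_coreB {K k D : Type*} [Field K] [Field k] [Algebra K k] [DivisionRing D] [Algebra K D]
    [Algebra k D] [IsScalarTower K k D] {n c b : ℕ} (hc : c ≤ n)
    (f : Fin c → MvPolynomial (Fin n) K) (hf : ∀ j, (f j).IsHomogeneous (b + 1))
    (I : Ideal (MvPolynomial (Fin n) K))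
    (hI : ∀ j, f j ∈ I) (lam : Fin n → Fin c → k)
    (hlam : ∀ i : Fin c, lam (Fin.castLE hc i) = Pi.single i 1)
    (ρ : MvPolynomial (Fin n) k →ₐ[k] MvPolynomial (Fin c) k)
    (hρ : ∀ p, ρ (X p) = ∑ l, C (lam p l) * X l)
    (γ τ w : Fin c → Fin c → D)
    (hcomm : ∀ a a', a ≠ a' → ∀ m l, Commute (γ a m) (γ a' l))
    (h1 : ∀ a, (∑ m, γ a m ⊗ₜ[k] (X m : MvPolynomial (Fin c) k)) ^ (b + 1) =
      ∑ j, τ a j ⊗ₜ[k] ρ (map (algebraMap K k) (f j)))
    (hw : ∀ a a', ∑ m, γ a m * w m a' = if a = a' then 1 else 0) :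
    ∃ J : Set (Fin n →₀ ℕ), (∀ β ∈ J, ∀ i, β + Finsupp.single i 1 ∈ J) ∧
      (∀ i : Fin n, (i : ℕ) < c → Finsupp.single i (b + 1) ∈ J) ∧
      (∀ d (T : Finset (Fin n →₀ ℕ)), (∀ β, β ∈ T ↔ β ∈ J ∧ β.degree = d) →
        T.card = Module.finrank K (ipart I d)) ∧
      ∀ p j, tt (mX K n) (homogeneousSubmodule (Fin n) K) (ipart I) p j ≤
        tt (mX K n) (homogeneousSubmodule (Fin n) K)
          (ipart (Ideal.span ((fun β => (monomial β 1 : MvPolynomial (Fin n) K)) '' J))) p j := by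
  classical
  let θ : k →ₐ[K] D := IsScalarTower.toAlgHom K k D
  have hθ : ∀ r d, Commute (θ r) d := fun r d => Algebra.commutes r d
  let ψ : MvPolynomial (Fin n) k →+* D ⊗[K] MvPolynomial (Fin n) K :=
    (Algebra.TensorProduct.map θ (AlgHom.id K _)).toRingHom.comp
      (algebraTensorAlgEquiv K k).symm.toRingEquiv.toRingHom
  have ψm : ∀ u r, ψ (monomial u r) = θ r ⊗ₜ monomial u 1 := by
    intro u r; simp [ψ]
  have ψX : ∀ p, ψ (X p) = 1 ⊗ₜ X p := by
    intro p; simp [ψ]
  have ψC : ∀ r, ψ (C r) = θ r ⊗ₜ 1 := fun r => ψm 0 r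
  have ψmap : ∀ g, ψ (map (algebraMap K k) g) = 1 ⊗ₜ g := by
    intro g; simp [ψ]
  have ψcomm : ∀ g y, Commute (ψ g) y := by
    intro g y
    induction g using MvPolynomial.induction_on' with
    | monomial u r =>
      rw [ψm]
      induction y using TensorProduct.induction_on with
      | zero => simp
      | tmul d s => simp [Commute, SemiconjBy, (hθ r d).eq, mul_comm]
      | add x y hx hy => exact hx.add_right hy
    | add p q hp hq => rw [map_add]; exact hp.add_left hq
  have ψhom : ∀ d g, g.IsHomogeneous d → ψ g ∈ Bd K D n d := by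
    intro d g hg
    rw [g.as_sum, map_sum]
    refine Submodule.sum_mem _ fun u hu => ?_
    rw [ψm]
    exact Submodule.tmul_mem_baseChange_of_mem _
      (isHomogeneous_monomial _ (mem_expo.mp (mem_hom_iff.mp hg u hu)))
  let ρ' : MvPolynomial (Fin n) k →ₐ[k] MvPolynomial (Fin n) k := (rename (Fin.castLE hc)).comp ρ
  have hρ' : ∀ p, ρ' (X p) = ∑ l, C (lam p l) * X (Fin.castLE hc l) := by
    intro p; simp [ρ', hρ, map_sum]
  have hρ1 : ∀ p, (ρ' (X p)).IsHomogeneous 1 := fun p => by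
    rw [hρ']; exact IsHomogeneous.sum _ _ _ fun l _ => isHomogeneous_C_mul_X _ _
  let N : Fin c → D ⊗[K] MvPolynomial (Fin n) K := fun a => ∑ m, γ a m ⊗ₜ X (Fin.castLE hc m)
  let M : Fin n → D ⊗[K] MvPolynomial (Fin n) K := fun p =>
    if h : (p : ℕ) < c then N ⟨p, h⟩ else ψ (X p - ρ' (X p))
  have hM : ∀ i j, Commute (M i) (M j) := by
    intro i j
    simp only [M]
    split_ifs with hi hj
    · by_cases hij : (⟨i, hi⟩ : Fin c) = ⟨j, hj⟩
      · rw [hij]
      · refine Commute.sum_left _ _ _ fun m _ => Commute.sum_right _ _ _ fun l _ => ?_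
        simp [Commute, SemiconjBy, (hcomm _ _ hij m l).eq, mul_comm]
    · exact (ψcomm _ _).symm
    · exact ψcomm _ _
    · exact ψcomm _ _
  have hspan : ∀ m : Fin c, (1 : D) ⊗ₜ[K] (X (Fin.castLE hc m) : MvPolynomial (Fin n) K) ∈
      Submodule.span D (Set.range M) := by
    intro m
    obtain ⟨u, hu⟩ := left_inverse γ w hw m
    have : (1 : D) ⊗ₜ[K] (X (Fin.castLE hc m) : MvPolynomial (Fin n) K) = ∑ a, u a • N a := by
      simp only [N, Finset.smul_sum, smul_tmul', smul_eq_mul]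
      rw [Finset.sum_comm]
      simp [← sum_tmul, hu, ite_tmul]
    rw [this]
    refine Submodule.sum_mem _ fun a _ => Submodule.smul_mem _ _ (Submodule.subset_span
      ⟨Fin.castLE hc a, ?_⟩)
    simp [M]
  let ψA : MvPolynomial (Fin n) k →ₐ[k] D ⊗[K] MvPolynomial (Fin n) K :=
    { ψ with commutes' := fun r => ψC r }
  let Φ : D ⊗[k] MvPolynomial (Fin c) k →ₐ[k] D ⊗[K] MvPolynomial (Fin n) K :=
    Algebra.TensorProduct.lift Algebra.TensorProduct.includeLeft
      (ψA.comp (rename (Fin.castLE hc))) fun x y => (ψcomm _ _).symm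
  have hΦ : ∀ (x : D) (g : MvPolynomial (Fin c) k),
      Φ (x ⊗ₜ[k] g) = x • ψ (rename (Fin.castLE hc) g) := by
    intro x g
    rw [smul_eq_tmul_mul]
    rfl
  choose W hW1 hW2 using fun j => Top_hom_sub ρ' hρ1 ((hf j).map (algebraMap K k))
  let Γ : Fin n → Fin n → D := fun p q =>
    if h : (p : ℕ) < c then ∑ m, if Fin.castLE hc m = q then γ ⟨p, h⟩ m else 0
    else θ ((if p = q then 1 else 0) - ∑ l, if Fin.castLE hc l = q then lam p l else 0)
  refine frameB M hM I Γ ?_ ?_ ?_ c (fun _ => b) ?_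
  · intro i j hij q q'
    simp only [Γ]
    by_cases hi : (i : ℕ) < c
    · by_cases hj : (j : ℕ) < c
      · rw [dif_pos hi, dif_pos hj]
        refine Commute.sum_left _ _ _ fun m _ => Commute.sum_right _ _ _ fun l _ => ?_
        split_ifs
        · exact hcomm _ _ (fun h => hij (Fin.ext (congrArg (fun x : Fin c => (x : ℕ)) h))) m l
        all_goals simp
      · rw [dif_neg hj]
        exact (hθ _ _).symm
    · rw [dif_neg hi]
      exact hθ _ _
  · intro i
    simp only [M, Γ]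
    by_cases hi : (i : ℕ) < c
    · simp only [dif_pos hi, N, sum_tmul, ite_tmul]
      rw [Finset.sum_comm]
      simp
    · simp only [dif_neg hi, hρ', map_sub, map_sum, map_mul, ψX, ψC, sub_tmul, sum_tmul,
        apply_ite θ, map_one, map_zero, ite_tmul, Finset.sum_sub_distrib]
      rw [Finset.sum_comm]
      simp
  · intro p
    by_cases hp : (p : ℕ) < c
    · exact hspan ⟨p, hp⟩
    · have : (1 : D) ⊗ₜ[K] (X p : MvPolynomial (Fin n) K) =
          M p + ∑ l, θ (lam p l) • ((1 : D) ⊗ₜ[K] X (Fin.castLE hc l)) := by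
        simp [M, hp, hρ', ψX, ψC, map_sum, smul_tmul']
      rw [this]
      exact add_mem (Submodule.subset_span ⟨p, rfl⟩)
        (Submodule.sum_mem _ fun l _ => Submodule.smul_mem _ _ (hspan l))
  · intro i hi
    let a : Fin c := ⟨i, hi⟩
    refine ⟨∑ j, τ a j ⊗ₜ f j, Submodule.sum_mem _ fun j _ =>
      Submodule.tmul_mem_baseChange_of_mem _ ⟨hI j, hf j⟩,
      fun p => ∑ j, τ a j • ψ (W j p), fun p => Submodule.sum_mem _ fun j _ =>
        Submodule.smul_mem _ _ (ψhom _ _ (hW1 j p)), ?_⟩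
    have e1 : M i ^ (b + 1) = ∑ j, τ a j • ψ (ρ' (map (algebraMap K k) (f j))) := by
      have := congrArg Φ (h1 a)
      rw [map_pow, map_sum, map_sum] at this
      simp only [hΦ, rename_X, ψX, smul_tmul', smul_eq_mul, mul_one] at this
      simp only [M, hi, dif_pos, N]
      exact this
    have e2 : ∀ j, ψ (ρ' (map (algebraMap K k) (f j))) = 1 ⊗ₜ f j +
        ∑ p ∈ Finset.univ.filter (fun p : Fin n => c ≤ p), ψ (W j p) * M p := by
      intro j
      rw [hW2 j, map_add, map_sum, Finset.sum_filter, ψmap]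
      congr 1
      refine Finset.sum_congr rfl fun p _ => ?_
      split_ifs with hp
      · simp only [M, dif_neg (not_lt.mpr hp), map_mul]
      · have : X p - ρ' (X p) = 0 := by
          obtain ⟨p', rfl⟩ : ∃ p' : Fin c, p = Fin.castLE hc p' := ⟨⟨p, not_le.mp hp⟩, rfl⟩
          simp [hρ', hlam, Pi.single_apply, apply_ite C]
        rw [this, mul_zero, map_zero]
    rw [e1]
    simp only [e2, smul_add, Finset.sum_add_distrib, smul_tmul', smul_eq_mul, mul_one,
      Finset.smul_sum, Finset.sum_mul]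
    congr 1
    rw [Finset.sum_comm]
    refine Finset.sum_congr rfl fun p _ => Finset.sum_congr rfl fun j _ => ?_
    rw [smul_eq_tmul_mul, smul_eq_tmul_mul, mul_assoc]

theorem egh_equalB {K : Type u} [Field K] {n c a : ℕ} (hc : c ≤ n) (ha : 2 ≤ a)
    (f : Fin c → MvPolynomial (Fin n) K) (hf : ∀ i, (f i).IsHomogeneous a) (hreg : P200.IsReg f)
    (I : Ideal (MvPolynomial (Fin n) K)) (hI : ∀ i, f i ∈ I) :
    ∃ J : Set (Fin n →₀ ℕ), (∀ β ∈ J, ∀ i, β + Finsupp.single i 1 ∈ J) ∧
      (∀ i : Fin n, (i : ℕ) < c → Finsupp.single i a ∈ J) ∧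
      (∀ d (T : Finset (Fin n →₀ ℕ)), (∀ β, β ∈ T ↔ β ∈ J ∧ β.degree = d) →
        T.card = Module.finrank K (P200.ipart I d)) ∧
      ∀ p j, tt (mX K n) (homogeneousSubmodule (Fin n) K) (P200.ipart I) p j ≤
        tt (mX K n) (homogeneousSubmodule (Fin n) K)
          (P200.ipart (Ideal.span ((fun β => (monomial β 1 : MvPolynomial (Fin n) K)) '' J))) p j := by
  obtain ⟨b, rfl⟩ : ∃ b, a = b + 1 := ⟨a - 1, by omega⟩
  let k := AlgebraicClosure K
  have h1 := hreg.baseChange (k := k)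
  obtain ⟨lam, hlam, h2⟩ := P200.elim hc h1
  obtain ⟨ζ, hζ⟩ := exists_QR (k := k) (a := b + 1) (by omega)
  have h3 : ∀ j, (P200.linSub lam (map (algebraMap K k) (f j))).IsHomogeneous (b + 1) := by
    intro j
    have := ((hf j).map (algebraMap K k)).aeval (fun j => ∑ l, C (lam j l) * X l)
      (n := 1) fun i => IsHomogeneous.sum _ _ _ fun l _ => isHomogeneous_C_mul_X _ _
    rw [one_mul] at this
    exact this
  obtain ⟨k', D, i1, i2, i3, i4, i5, i6, i7, γ, τ, w, hcomm, r1, hw⟩ :=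
    towerA ha hζ _ h3 h2 c le_rfl
  let alg : Algebra K D := ((algebraMap k D).comp (algebraMap K k)).toAlgebra'
    fun r d => Algebra.commutes _ d
  haveI : IsScalarTower K k D := IsScalarTower.of_algebraMap_eq fun _ => rfl
  exact Top_coreB hc f hf I hI lam hlam (P200.linSub lam) (fun p => by simp [P200.linSub])
    γ τ w hcomm r1 hw

end Vale.Agent.P200L
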