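import Vale.Agent.P200L.Lin
import Mathlib.LinearAlgebra.TensorProduct.Pi
import Mathlib.RingTheory.TensorProduct.Free

/-! Base change and change of frame for Koszul chains. -/

namespace Vale.Agent.P200L

open Module MvPolynomial TensorProduct P200

variable {n : ℕ} {K D : Type*} [Field K] [DivisionRing D] [Algebra K D]

section bc
variable {V : Type*} [AddCommGroup V] [Module K V]

/-- base change of a space of chains -/
noncomputable def bc (D : Type*) [DivisionRing D] [Algebra K D]
    (Y : Submodule K (Finset (Fin n) → V)) : Submodule D (Finset (Fin n) → D ⊗[K] V) :=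
  Submodule.span D (Y.map ((TensorProduct.mk K D V 1).compLeft (Finset (Fin n))))

lemma bc_eq (Y : Submodule K (Finset (Fin n) → V)) : bc D Y = (Y.baseChange D).map
    (LinearMap.pi fun F => (LinearMap.proj (R := K) (φ := fun _ => V) F).baseChange D) := by
  rw [bc, Submodule.baseChange_eq_span, Submodule.map_span, Submodule.map_coe, Submodule.map_coe,
    Set.image_image]
  rfl

instance bcFin' (Y : Submodule K (Finset (Fin n) → V)) [FiniteDimensional K Y] :
    FiniteDimensional D (bc D Y) := by
  rw [bc_eq]
  infer_instance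

lemma finrank_bc' (Y : Submodule K (Finset (Fin n) → V)) [FiniteDimensional K Y] :
    finrank D (bc D Y) = finrank K Y := by
  rw [bc_eq, finrank_map_inj, finrank_bc]
  intro w _ hw
  have e : ∀ z : D ⊗[K] (Finset (Fin n) → V), (LinearMap.pi fun F =>
      (LinearMap.proj (R := K) (φ := fun _ => V) F).baseChange D) z =
      piRight K K D (fun _ => V) z := by
    intro z
    induction z using TensorProduct.induction_on with
    | zero => simp
    | tmul d u => funext F; simp
    | add x y hx hy => rw [map_add, map_add, hx, hy]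
  rw [e] at hw
  exact (piRight K K D (fun _ => V)).map_eq_zero_iff.mp hw

lemma bc_sup (A B : Submodule K (Finset (Fin n) → V)) : bc D (A ⊔ B) = bc D A ⊔ bc D B := by
  unfold bc
  rw [Submodule.map_sup, ← Submodule.span_union, ← Submodule.span_span_of_tower K D (_ ∪ _),
    Submodule.span_union, Submodule.span_eq, Submodule.span_eq]

lemma bc_map (T : Fin n → V →ₗ[K] V) (Y : Submodule K (Finset (Fin n) → V)) :
    bc D (Y.map (kos T)) = (bc D Y).map (kos fun i => (T i).baseChange D) := by
  unfold bc
  rw [Submodule.map_span, Submodule.map_coe, Submodule.map_coe, Submodule.map_coe,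
    Set.image_image, Set.image_image]
  congr 1
  refine Set.image_congr fun u _ => funext fun F => ?_
  simp [kos_apply, tmul_sum]

lemma bc_ch (G : ℕ → Submodule K V) [∀ d, FiniteDimensional K (G d)] (p j : ℕ) :
    bc D (ch n G p j) = ch n (fun d => (G d).baseChange D) p j := by
  have := ch_fin (n := n) G p j
  have := ch_fin (n := n) (fun d => (G d).baseChange D) p j
  apply Submodule.eq_of_le_of_finrank_le
  · rw [bc, Submodule.span_le]
    rintro _ ⟨u, hu, rfl⟩
    rw [SetLike.mem_coe, mem_ch'] at hu
    rw [SetLike.mem_coe, mem_ch']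
    exact ⟨fun F h1 h2 => Submodule.tmul_mem_baseChange_of_mem _ (hu.1 F h1 h2),
      fun F h => by simp [hu.2 F h]⟩
  · rw [finrank_bc', finrank_ch, finrank_ch]
    simp only [finrank_bc]
    exact le_rfl

lemma tt_bc (T : Fin n → V →ₗ[K] V) (G U : ℕ → Submodule K V) [∀ d, FiniteDimensional K (G d)]
    [∀ d, FiniteDimensional K (U d)] (p j : ℕ) :
    tt (fun i => (T i).baseChange D) (fun d => (G d).baseChange D) (fun d => (U d).baseChange D)
      p j = tt T G U p j := by
  have := ch_fin (n := n) G (p + 1) j
  have := ch_fin (n := n) U p j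
  unfold tt
  rw [← bc_ch, ← bc_ch, ← bc_map]
  have e1 := Submodule.finrank_sup_add_finrank_inf_eq (bc D ((ch n G (p + 1) j).map (kos T)))
    (bc D (ch n U p j))
  have e2 := Submodule.finrank_sup_add_finrank_inf_eq ((ch n G (p + 1) j).map (kos T))
    (ch n U p j)
  rw [← bc_sup, finrank_bc', finrank_bc', finrank_bc'] at e1
  omega

end bc

/-- right multiplication as a left linear map -/
noncomputable def rm (y : D ⊗[K] MvPolynomial (Fin n) K) :
    D ⊗[K] MvPolynomial (Fin n) K →ₗ[D] D ⊗[K] MvPolynomial (Fin n) K where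
  toFun r := r * y
  map_add' a b := add_mul a b y
  map_smul' d r := by
    rw [RingHom.id_apply, smul_eq_tmul_mul, smul_eq_tmul_mul, mul_assoc]

lemma mX_bc (i : Fin n) : (mX K n i).baseChange D = rm ((1 : D) ⊗ₜ[K] X i) := by
  refine LinearMap.ext fun z => ?_
  induction z using TensorProduct.induction_on with
  | zero => simp
  | tmul d u => simp [rm]
  | add x y hx hy => rw [map_add, map_add, hx, hy]

lemma kos_rm (y : Fin n → D ⊗[K] MvPolynomial (Fin n) K)
    (u : Finset (Fin n) → D ⊗[K] MvPolynomial (Fin n) K) : kos (fun i => rm (y i)) u = dd y u := by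
  funext F
  rw [kos_apply]
  rfl

/-- the inclusion of the coefficients -/
noncomputable abbrev io (K D : Type*) [Field K] [DivisionRing D] [Algebra K D] (n : ℕ) :
    D →+* D ⊗[K] MvPolynomial (Fin n) K :=
  Algebra.TensorProduct.includeLeftRingHom

/-- the change of frame as a linear map -/
noncomputable def PhiL (K : Type*) [Field K] [Algebra K D] (Γ : Fin n → Fin n → D) :
    (Finset (Fin n) → D ⊗[K] MvPolynomial (Fin n) K) →ₗ[D]
      (Finset (Fin n) → D ⊗[K] MvPolynomial (Fin n) K) where
  toFun u := Phi (fun i k => io K D n (Γ i k)) u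
  map_add' a b := by
    funext G
    simp [Phi, add_mul, Finset.sum_add_distrib]
  map_smul' d u := by
    funext G
    simp only [Phi, Pi.smul_apply, RingHom.id_apply, Finset.smul_sum]
    refine Finset.sum_congr rfl fun F _ => ?_
    rw [smul_eq_tmul_mul, smul_eq_tmul_mul, mul_assoc]

lemma PhiL_apply (Γ : Fin n → Fin n → D) (u : Finset (Fin n) → D ⊗[K] MvPolynomial (Fin n) K)
    (G : Finset (Fin n)) : PhiL K Γ u G = ∑ F, u F * io K D n (om Γ F G) := by
  simp only [← om_map]
  rfl

lemma PhiL_ch (Γ : Fin n → Fin n → D) (U : ℕ → Submodule K (MvPolynomial (Fin n) K)) (p j : ℕ) :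
    (ch n (fun d => (U d).baseChange D) p j).map (PhiL K Γ) ≤
      ch n (fun d => (U d).baseChange D) p j := by
  rintro _ ⟨u, hu, rfl⟩
  rw [SetLike.mem_coe, mem_ch'] at hu
  rw [mem_ch']
  refine ⟨fun G _ h2 => ?_, fun G h => ?_⟩
  · rw [PhiL_apply]
    refine Submodule.sum_mem _ fun F _ => ?_
    by_cases hF : F.card = p
    · refine bc_mul (q := Submodule.span K {1}) (fun x hx y hy => ?_) (hu.1 F hF h2)
        (Submodule.tmul_mem_baseChange_of_mem _ (Submodule.mem_span_singleton_self _))
      obtain ⟨r, rfl⟩ := Submodule.mem_span_singleton.mp hy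
      rw [mul_smul_comm, mul_one]
      exact Submodule.smul_mem _ _ hx
    · rw [hu.2 F (fun h => hF h.1), zero_mul]
      exact zero_mem _
  · rw [PhiL_apply]
    refine Finset.sum_eq_zero fun F _ => ?_
    by_cases hF : F.card = p ∧ p ≤ j
    · rw [om_card Γ F G (fun e => h ⟨e.trans hF.1, hF.2⟩), map_zero, mul_zero]
    · rw [hu.2 F hF, zero_mul]

lemma PhiL_kos (Γ : Fin n → Fin n → D)
    (hΓ : ∀ i i', i ≠ i' → ∀ k l, Commute (Γ i k) (Γ i' l))
    (M : Fin n → D ⊗[K] MvPolynomial (Fin n) K) (hMΓ : ∀ i, M i = ∑ k, Γ i k ⊗ₜ[K] X k)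
    (u : Finset (Fin n) → D ⊗[K] MvPolynomial (Fin n) K) :
    dd (fun k => (1 : D) ⊗ₜ[K] X k) (PhiL K Γ u) = PhiL K Γ (dd M u) := by
  have := dd_Phi (fun k => (1 : D) ⊗ₜ[K] (X k : MvPolynomial (Fin n) K))
    (fun i k => io K D n (Γ i k)) (fun k a => one_tmul_comm _ a)
    (fun i i' h k l => (hΓ i i' h k l).map _) u
  have e : (fun i => ∑ k, io K D n (Γ i k) * (1 : D) ⊗ₜ[K] (X k : MvPolynomial (Fin n) K)) = M := by
    funext i
    simp [hMΓ]
  rw [e] at this
  exact this

lemma PhiL_inj_of (Γ : Fin n → Fin n → D) (p : ℕ)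
    (h : ∀ v : Finset (Fin n) → D, (∀ F, F.card ≠ p → v F = 0) → Phi Γ v = 0 → v = 0)
    (u : Finset (Fin n) → D ⊗[K] MvPolynomial (Fin n) K) (hu : ∀ F, F.card ≠ p → u F = 0)
    (h0 : PhiL K Γ u = 0) : u = 0 := by
  let b := Algebra.TensorProduct.basis D (basisMonomials (Fin n) K)
  have hc : ∀ β r d, b.repr (r * io K D n d) β = b.repr r β * d := by
    intro β r d
    induction r using TensorProduct.induction_on with
    | zero => simp
    | tmul e s =>
      simp [b, Algebra.TensorProduct.basis_repr_tmul, mul_assoc, Algebra.commutes]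
    | add x y hx hy => rw [add_mul, map_add, map_add, Finsupp.add_apply, Finsupp.add_apply, hx, hy,
        add_mul]
  funext F
  apply b.repr.injective
  ext β
  have := h (fun F => b.repr (u F) β) (fun F hF => by simp [hu F hF]) (by
    funext G
    have := congrArg (fun r => b.repr r β) (congrFun h0 G)
    simp only [PhiL_apply, map_sum, Finsupp.finsetSum_apply, hc] at this
    simpa [Phi] using this)
  simpa using congrFun this F

lemma PhiL_inj (Γ : Fin n → Fin n → D)
    (hΓ : ∀ i i', i ≠ i' → ∀ k l, Commute (Γ i k) (Γ i' l))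
    (M : Fin n → D ⊗[K] MvPolynomial (Fin n) K) (hMΓ : ∀ i, M i = ∑ k, Γ i k ⊗ₜ[K] X k)
    (hli : LinearIndependent D M) (p : ℕ) :
    ∀ u : Finset (Fin n) → D ⊗[K] MvPolynomial (Fin n) K, (∀ F, F.card ≠ p → u F = 0) →
      PhiL K Γ u = 0 → u = 0 := by
  induction p with
  | zero =>
    refine PhiL_inj_of Γ 0 fun v hv h0 => funext fun F => ?_
    by_cases hF : F = ∅
    · have := congrFun h0 ∅
      rw [Phi, Finset.sum_eq_single ∅ (fun G _ hG => by
        rw [hv G (by simpa using hG), zero_mul]) (by simp), om_empty] at this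
      simpa [hF] using this
    · exact hv F (by simpa using hF)
  | succ p ih =>
    refine PhiL_inj_of Γ (p + 1) fun v hv h0 => funext fun F => ?_
    have h1 : PhiL K Γ (fun F => io K D n (v F)) = 0 := by
      funext G
      have := congrArg (io K D n) (congrFun h0 G)
      rw [PhiL_apply]
      simpa only [Phi, map_sum, map_mul, Pi.zero_apply, map_zero] using this
    have h2 := PhiL_kos Γ hΓ M hMΓ (fun F => io K D n (v F))
    rw [h1] at h2
    have h3 := ih (dd M fun F => io K D n (v F)) (fun G hG => Finset.sum_eq_zero fun k hk => by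
      beta_reduce
      rw [hv _ (by rw [Finset.card_insert_of_notMem (Finset.mem_compl.mp hk)]; omega), map_zero,
        zero_mul, smul_zero]) (by
      rw [← h2]
      funext G
      simp [dd])
    by_cases hF : F.card = p + 1
    · obtain ⟨i, hi⟩ : F.Nonempty := Finset.card_pos.mp (by omega)
      have h4 := Fintype.linearIndependent_iff.mp hli
        (fun k => if k ∈ (F.erase i)ᶜ then sg (F.erase i) k • v (insert k (F.erase i)) else 0) (by
          have := congrFun h3 (F.erase i)
          rw [dd] at this
          simp only [ite_smul, zero_smul]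
          rw [Finset.sum_ite_mem, Finset.univ_inter]
          refine Eq.trans (Finset.sum_congr rfl fun k _ => ?_) this
          rw [smul_assoc, smul_eq_tmul_mul]
          rfl) i
      rw [if_pos (by simp), Finset.insert_erase hi] at h4
      have := congrArg (fun x => sg (F.erase i) i • x) h4
      simpa only [smul_smul, sg_mul_self, one_smul, smul_zero, Pi.zero_apply] using this
    · exact hv F hF

end Vale.Agent.P200L
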