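import Vale.Agent.P200L.Defs
import Mathlib.Tactic

/-! Sign rules for the Koszul complex and the change of frame. -/

namespace Vale.Agent.P200L

variable {n : ℕ}

/-- the Koszul sign -/
def sg (F : Finset (Fin n)) (i : Fin n) : ℤ := (-1 : ℤ) ^ (F.filter (· < i)).card

lemma kos_apply {R V : Type*} [Ring R] [AddCommGroup V] [Module R V] (T : Fin n → V →ₗ[R] V)
    (u : Finset (Fin n) → V) (F : Finset (Fin n)) :
    kos T u F = ∑ i ∈ Fᶜ, sg F i • T i (u (insert i F)) := by
  simp [kos, sg, LinearMap.sum_apply]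

lemma sg_mul_self (F : Finset (Fin n)) (i : Fin n) : sg F i * sg F i = 1 := by
  rw [sg, ← mul_pow]; simp

lemma sg_insert {F : Finset (Fin n)} {k : Fin n} (hk : k ∉ F) (i : Fin n) :
    sg (insert k F) i = (if k < i then -1 else 1) * sg F i := by
  unfold sg
  rw [Finset.filter_insert]
  split_ifs with h
  · rw [Finset.card_insert_of_notMem (by simp [hk]), pow_succ]; ring
  · ring

lemma sg_anti {H : Finset (Fin n)} {k l : Fin n} (hk : k ∉ H) (hl : l ∉ H) (hkl : k ≠ l) :
    sg (insert l H) k * sg (insert k H) l = -(sg H l * sg H k) := by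
  rw [sg_insert hk, sg_insert hl]
  rcases lt_or_gt_of_ne hkl with h | h
  · rw [if_neg (not_lt.mpr h.le), if_pos h]; ring
  · rw [if_pos h, if_neg (not_lt.mpr h.le)]; ring

lemma kos_kos {R V : Type*} [Ring R] [AddCommGroup V] [Module R V] (T : Fin n → V →ₗ[R] V)
    (hT : ∀ i j v, T i (T j v) = T j (T i v)) (u : Finset (Fin n) → V) :
    kos T (kos T u) = 0 := by
  funext F
  rw [kos_apply]
  simp only [kos_apply, map_sum, map_zsmul, Finset.smul_sum, smul_smul, Pi.zero_apply]
  let φ : Fin n × Fin n → V := fun q => if q.2 = q.1 then 0 else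
    (sg F q.1 * sg (insert q.1 F) q.2) • T q.1 (T q.2 (u (insert q.2 (insert q.1 F))))
  have e : ∑ i ∈ Fᶜ, ∑ k ∈ (insert i F)ᶜ,
      (sg F i * sg (insert i F) k) • T i (T k (u (insert k (insert i F)))) =
      ∑ q ∈ Fᶜ ×ˢ Fᶜ, φ q := by
    rw [Finset.sum_product]
    refine Finset.sum_congr rfl fun i hi => ?_
    rw [Finset.compl_insert, ← Finset.add_sum_erase _ _ hi]
    simp only [φ, if_true, zero_add]
    exact Finset.sum_congr rfl fun k hk => by rw [if_neg (Finset.ne_of_mem_erase hk)]
  rw [e]
  refine Finset.sum_involution (fun q _ => q.swap) ?_ ?_ ?_ ?_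
  · rintro ⟨i, k⟩ hq
    obtain ⟨hi, hk⟩ := Finset.mem_product.mp hq
    rw [Finset.mem_compl] at hi hk
    by_cases h : k = i
    · simp [φ, h]
    · simp only [φ, Prod.fst_swap, Prod.snd_swap, if_neg h, if_neg (Ne.symm h)]
      rw [Finset.insert_comm i k F, hT k i, ← add_smul]
      have h1 := sg_anti hk hi h
      have h2 := sg_mul_self F i
      have h3 := sg_mul_self (insert k F) i
      have : sg F i * sg (insert i F) k + sg F k * sg (insert k F) i = 0 := by
        linear_combination (sg F i * sg (insert k F) i) * h1 -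
          (sg F i * sg (insert i F) k) * h3 - (sg F k * sg (insert k F) i) * h2
      rw [this, zero_smul]
  · rintro ⟨i, k⟩ _ hne h
    apply hne
    have : k = i := congrArg Prod.fst h
    simp [φ, this]
  · rintro ⟨i, k⟩ hq
    obtain ⟨hi, hk⟩ := Finset.mem_product.mp hq
    exact Finset.mem_product.mpr ⟨hk, hi⟩
  · rintro ⟨i, k⟩ _
    rfl

section wedge
variable {A : Type*} [Ring A]

/-- Koszul differential for right multiplications, as a plain function -/
def dd (x : Fin n → A) (w : Finset (Fin n) → A) (G : Finset (Fin n)) : A :=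
  ∑ k ∈ Gᶜ, sg G k • (w (insert k G) * x k)

/-- left wedge product with `∑ g k e_k` -/
def Wd (g : Fin n → A) (w : Finset (Fin n) → A) (G : Finset (Fin n)) : A :=
  ∑ k ∈ G, sg (G.erase k) k • (g k * w (G.erase k))

lemma car (x g : Fin n → A) (hx : ∀ k a, Commute (x k) a) (w : Finset (Fin n) → A)
    (G : Finset (Fin n)) :
    dd x (Wd g w) G + Wd g (dd x w) G = (∑ k, g k * x k) * w G := by
  have e1 : dd x (Wd g w) G = ∑ k ∈ Gᶜ, g k * x k * w G + ∑ k ∈ Gᶜ, ∑ l ∈ G,
      (sg G k * sg (insert k (G.erase l)) l) • (g l * w (insert k (G.erase l)) * x k) := by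
    unfold dd Wd
    rw [← Finset.sum_add_distrib]
    refine Finset.sum_congr rfl fun k hk => ?_
    rw [Finset.mem_compl] at hk
    rw [Finset.sum_insert hk, Finset.erase_insert hk, add_mul, smul_add, smul_mul_assoc, smul_smul,
      sg_mul_self, one_smul, mul_assoc, ← (hx k (w G)).eq, ← mul_assoc, Finset.sum_mul,
      Finset.smul_sum]
    congr 1
    refine Finset.sum_congr rfl fun l hl => ?_
    rw [Finset.erase_insert_of_ne (by rintro rfl; exact hk hl), smul_mul_assoc, smul_smul]
  have e2 : Wd g (dd x w) G = ∑ l ∈ G, g l * x l * w G + ∑ l ∈ G, ∑ k ∈ Gᶜ,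
      (sg (G.erase l) l * sg (G.erase l) k) • (g l * w (insert k (G.erase l)) * x k) := by
    unfold dd Wd
    rw [← Finset.sum_add_distrib]
    refine Finset.sum_congr rfl fun l hl => ?_
    beta_reduce
    rw [Finset.compl_erase, Finset.sum_insert (by simpa using hl), Finset.insert_erase hl, mul_add,
      smul_add, mul_smul_comm, smul_smul, sg_mul_self, one_smul, ← (hx l (w G)).eq, ← mul_assoc,
      Finset.mul_sum, Finset.smul_sum]
    congr 1
    refine Finset.sum_congr rfl fun k _ => ?_
    rw [mul_smul_comm, smul_smul, mul_assoc]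
  rw [e1, e2, Finset.sum_comm (s := G), Finset.sum_mul,
    ← Finset.sum_add_sum_compl G fun k => g k * x k * w G]
  have e3 : ∑ k ∈ Gᶜ, ∑ l ∈ G,
      (sg G k * sg (insert k (G.erase l)) l) • (g l * w (insert k (G.erase l)) * x k) +
      ∑ k ∈ Gᶜ, ∑ l ∈ G,
      (sg (G.erase l) l * sg (G.erase l) k) • (g l * w (insert k (G.erase l)) * x k) = 0 := by
    rw [← Finset.sum_add_distrib]
    refine Finset.sum_eq_zero fun k hk => ?_
    rw [← Finset.sum_add_distrib]
    refine Finset.sum_eq_zero fun l hl => ?_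
    rw [Finset.mem_compl] at hk
    have h := sg_anti (H := G.erase l) (k := k) (l := l) (fun h => hk (Finset.mem_of_mem_erase h))
      (Finset.notMem_erase l G) (by rintro rfl; exact hk hl)
    rw [Finset.insert_erase hl] at h
    rw [← add_smul, h, neg_add_cancel, zero_smul]
  rw [add_add_add_comm, e3, add_zero, add_comm, Finset.sum_congr rfl fun k _ => rfl]

/-- the wedge product of the rows indexed by `F` -/
def om (γ : Fin n → Fin n → A) (F : Finset (Fin n)) : Finset (Fin n) → A :=
  (F.sort (· ≤ ·)).foldr (fun i w => Wd (γ i) w) (Pi.single ∅ 1)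

lemma om_empty (γ : Fin n → Fin n → A) : om γ ∅ = Pi.single ∅ 1 := by simp [om]

lemma om_insert (γ : Fin n → Fin n → A) {i : Fin n} {F : Finset (Fin n)} (h : ∀ k ∈ F, i < k) :
    om γ (insert i F) = Wd (γ i) (om γ F) := by
  unfold om
  rw [Finset.sort_insert _ (fun k hk => (h k hk).le) (fun hi => lt_irrefl _ (h i hi)),
    List.foldr_cons]

lemma om_card (γ : Fin n → Fin n → A) (F : Finset (Fin n)) :
    ∀ G, G.card ≠ F.card → om γ F G = 0 := by
  induction F using Finset.induction_on_min with
  | empty =>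
    intro G hG
    rw [om_empty, Pi.single_eq_of_ne]
    rintro rfl
    exact hG rfl
  | insert i F h ih =>
    intro G hG
    rw [om_insert γ h]
    refine Finset.sum_eq_zero fun k hk => ?_
    rw [Finset.card_insert_of_notMem (fun hi => lt_irrefl _ (h i hi))] at hG
    have := Finset.card_erase_add_one hk
    rw [ih _ (by omega), mul_zero, smul_zero]

lemma om_map {B : Type*} [Ring B] (φ : A →+* B) (γ : Fin n → Fin n → A) (F : Finset (Fin n)) :
    ∀ G, om (fun i k => φ (γ i k)) F G = φ (om γ F G) := by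
  induction F using Finset.induction_on_min with
  | empty =>
    intro G
    simp [om_empty, Pi.single_apply, apply_ite φ]
  | insert i F h ih =>
    intro G
    rw [om_insert _ h, om_insert _ h]
    simp [Wd, ih, map_sum]

lemma dd_om (x : Fin n → A) (γ : Fin n → Fin n → A) (hx : ∀ k a, Commute (x k) a)
    (hγ : ∀ i i', i ≠ i' → ∀ k l, Commute (γ i k) (γ i' l)) (F : Finset (Fin n)) :
    ∀ G, dd x (om γ F) G =
      ∑ i ∈ F, sg (F.erase i) i • ((∑ k, γ i k * x k) * om γ (F.erase i) G) := by
  induction F using Finset.induction_on_min with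
  | empty =>
    intro G
    rw [Finset.sum_empty, om_empty]
    refine Finset.sum_eq_zero fun k _ => ?_
    rw [Pi.single_eq_of_ne (Finset.insert_ne_empty _ _), zero_mul, smul_zero]
  | insert i F h ih =>
    intro G
    have hi : i ∉ F := fun hi => lt_irrefl _ (h i hi)
    have h1 : sg F i = 1 := by
      rw [sg, Finset.filter_eq_empty_iff.mpr fun k hk => not_lt.mpr (h k hk).le]
      simp
    rw [om_insert γ h, eq_sub_of_add_eq (car x (γ i) hx _ G), Finset.sum_insert hi,
      Finset.erase_insert hi, h1, one_smul, sub_eq_add_neg]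
    congr 1
    have e : ∀ l ∈ F, sg ((insert i F).erase l) l •
        ((∑ k, γ l k * x k) * om γ ((insert i F).erase l) G) =
        -∑ k ∈ G, sg (G.erase k) k • (γ i k * (sg (F.erase l) l •
          ((∑ k, γ l k * x k) * om γ (F.erase l) (G.erase k)))) := by
      intro l hl
      have hil : i ≠ l := by rintro rfl; exact hi hl
      rw [Finset.erase_insert_of_ne hil, om_insert γ fun k hk => h k (Finset.mem_of_mem_erase hk),
        sg_insert (fun h' => hi (Finset.mem_of_mem_erase h')), if_pos (h l hl), neg_one_mul,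
        neg_smul, Wd, Finset.mul_sum, Finset.smul_sum]
      congr 1
      refine Finset.sum_congr rfl fun k _ => ?_
      have hc : Commute (γ i k) (∑ k, γ l k * x k) :=
        Commute.sum_right _ _ _ fun m _ => (hγ i l hil k m).mul_right (hx m _).symm
      rw [mul_smul_comm, mul_smul_comm, smul_comm, ← mul_assoc, ← mul_assoc, hc.eq]
    rw [Finset.sum_congr rfl e, Finset.sum_neg_distrib, Finset.sum_comm, Wd]
    congr 1
    refine Finset.sum_congr rfl fun k _ => ?_
    rw [ih, Finset.mul_sum, Finset.smul_sum]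

/-- the change of frame on chains -/
def Phi (γ : Fin n → Fin n → A) (u : Finset (Fin n) → A) (G : Finset (Fin n)) : A :=
  ∑ F, u F * om γ F G

lemma dd_Phi (x : Fin n → A) (γ : Fin n → Fin n → A) (hx : ∀ k a, Commute (x k) a)
    (hγ : ∀ i i', i ≠ i' → ∀ k l, Commute (γ i k) (γ i' l)) (u : Finset (Fin n) → A) :
    dd x (Phi γ u) = Phi γ (dd (fun i => ∑ k, γ i k * x k) u) := by
  funext G
  have e1 : dd x (Phi γ u) G = ∑ F, u F * dd x (om γ F) G := by
    simp only [dd, Phi, Finset.sum_mul, Finset.smul_sum, Finset.mul_sum, mul_smul_comm, mul_assoc]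
    exact Finset.sum_comm
  rw [e1]
  simp only [dd_om x γ hx hγ, Finset.mul_sum]
  simp only [Phi, dd]
  simp only [Finset.sum_mul (s := _ᶜ)]
  rw [Finset.sum_sigma', Finset.sum_sigma']
  refine Finset.sum_bij' (fun q _ => ⟨q.1.erase q.2, q.2⟩) (fun q _ => ⟨insert q.2 q.1, q.2⟩)
    ?_ ?_ ?_ ?_ ?_
  · rintro ⟨F, i⟩ _
    simp
  · rintro ⟨F, i⟩ _
    simp
  · rintro ⟨F, i⟩ h
    have : i ∈ F := by simpa using h
    simp [Finset.insert_erase this]
  · rintro ⟨F, i⟩ h
    have : i ∉ F := by simpa using h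
    simp [Finset.erase_insert this]
  · rintro ⟨F, i⟩ h
    have : i ∈ F := by simpa using h
    simp only [Finset.insert_erase this, mul_smul_comm, smul_mul_assoc, mul_assoc]

end wedge

end Vale.Agent.P200L
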