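import Mathlib.RingTheory.MvPolynomial.Homogeneous
import Mathlib.RingTheory.Ideal.Quotient.Operations
import Mathlib.LinearAlgebra.Dimension.Finrank
import Mathlib.LinearAlgebra.Pi
import Mathlib.LinearAlgebra.Quotient.Basic

/-! Graded Betti numbers through Koszul homology. -/

namespace Vale.Agent.P200L

open MvPolynomial

/-- The Koszul differential of operators `T 1, …, T n` on a module `V`. A chain is a family
`u F ∈ V` indexed by the subsets `F` (the coefficient of `e_F`), and
`∂ (v e_F) = ∑_{i ∈ F} (-1)^{#{k ∈ F, k < i}} (T i v) e_{F \ i}`. -/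
def kos {R V : Type*} [Ring R] [AddCommGroup V] [Module R V] {n : ℕ} (T : Fin n → V →ₗ[R] V) :
    (Finset (Fin n) → V) →ₗ[R] (Finset (Fin n) → V) :=
  LinearMap.pi fun F => ∑ i ∈ Fᶜ,
    ((-1 : ℤ) ^ (F.filter (· < i)).card) • (T i ∘ₗ LinearMap.proj (insert i F))

/-- Chains of homological degree `p` and internal degree `j`: only subsets with `p` elements
occur and the coefficients lie in the degree `j - p` part `G (j - p)` (no chains if `j < p`). -/
def ch {R V : Type*} [Ring R] [AddCommGroup V] [Module R V] (n : ℕ) (G : ℕ → Submodule R V)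
    (p j : ℕ) : Submodule R (Finset (Fin n) → V) :=
  Submodule.pi Set.univ fun F => if F.card = p ∧ p ≤ j then G (j - p) else ⊥

/-- Dimension of the homology of `C' → C → ⋯` at `C`: cycles in `C` modulo boundaries of `C'`. -/
noncomputable def homDim {K W : Type*} [Field K] [AddCommGroup W] [Module K W] (δ : W →ₗ[K] W)
    (C' C : Submodule K W) : ℕ :=
  Module.finrank K (↥(LinearMap.ker δ ⊓ C) ⧸ (C'.map δ).comap (LinearMap.ker δ ⊓ C).subtype)

variable {K : Type*} [Field K] {n : ℕ}

/-- The degree `d` part `(S/I)_d`. -/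
noncomputable def qdeg (I : Ideal (MvPolynomial (Fin n) K)) (d : ℕ) :
    Submodule K (MvPolynomial (Fin n) K ⧸ I) :=
  (homogeneousSubmodule (Fin n) K d).map (Ideal.Quotient.mkₐ K I).toLinearMap

/-- The differential of the Koszul complex `K(x_1, …, x_n; S/I)`. -/
noncomputable def qkos (I : Ideal (MvPolynomial (Fin n) K)) :
    (Finset (Fin n) → MvPolynomial (Fin n) K ⧸ I) →ₗ[K]
      (Finset (Fin n) → MvPolynomial (Fin n) K ⧸ I) :=
  kos fun i => LinearMap.mulRight K (Ideal.Quotient.mk I (X i))

/-- The graded Betti number `β_{p,j}(S/I) = dim_K H_p(x_1, …, x_n; S/I)_j`. -/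
noncomputable def betti (I : Ideal (MvPolynomial (Fin n) K)) (p j : ℕ) : ℕ :=
  homDim (qkos I) (ch n (qdeg I) (p + 1) j) (ch n (qdeg I) p j)

end Vale.Agent.P200L
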