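import Vale.Agent.P200L.Bc

/-! Initial ideals in a commuting frame can only raise the graded Betti numbers. -/

namespace Vale.Agent.P200L

open Module MvPolynomial TensorProduct P200

variable {n : ℕ} {K D : Type*} [Field K] [DivisionRing D] [Algebra K D]

/-- coefficient families of degree `d` -/
noncomputable abbrev Pd (D : Type*) [DivisionRing D] (n d : ℕ) :
    Submodule D ((Fin n →₀ ℕ) →₀ D) :=
  Finsupp.supported D D (expo n d : Set (Fin n →₀ ℕ))

instance PdFin (d : ℕ) : FiniteDimensional D (Pd D n d) :=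
  Module.Finite.equiv (Finsupp.supportedEquivFinsupp _).symm

/-- shift of exponents -/
noncomputable abbrev sh (D : Type*) [DivisionRing D] (n : ℕ) (i : Fin n) :
    ((Fin n →₀ ℕ) →₀ D) →ₗ[D] ((Fin n →₀ ℕ) →₀ D) :=
  Finsupp.lmapDomain D D (· + Finsupp.single i 1)

lemma sh_Pd (i : Fin n) (d : ℕ) : ∀ v ∈ Pd D n d, sh D n i v ∈ Pd D n (d + 1) := by
  classical
  intro v hv γ hγ
  obtain ⟨δ, hδ, rfl⟩ := Finset.mem_image.mp (Finsupp.mapDomain_support hγ)
  have := mem_expo.mp (hv hδ)
  rw [Finset.mem_coe, mem_expo, map_add, this, Finsupp.degree_single]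

section transfer
variable (M : Fin n → D ⊗[K] MvPolynomial (Fin n) K) (hM : ∀ i j, Commute (M i) (M j))

lemma span_mono_eq (h1 : ∀ i, M i ∈ Bd K D n 1)
    (hs : ∀ k, (1 : D) ⊗ₜ[K] (X k : MvPolynomial (Fin n) K) ∈ Submodule.span D (Set.range M))
    (d : ℕ) : Submodule.span D (mono M hM '' (expo n d : Set (Fin n →₀ ℕ))) = Bd K D n d := by
  refine le_antisymm ?_ (Bd_le_span M hM hs d)
  rw [Submodule.span_le]
  rintro _ ⟨β, hβ, rfl⟩
  have := mono_mem M hM h1 β
  rwa [mem_expo.mp hβ] at this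

lemma mono_inj (h1 : ∀ i, M i ∈ Bd K D n 1)
    (hs : ∀ k, (1 : D) ⊗ₜ[K] (X k : MvPolynomial (Fin n) K) ∈ Submodule.span D (Set.range M))
    (d : ℕ) : LinearIndepOn D (mono M hM) (expo n d : Set (Fin n →₀ ℕ)) := by
  have e : Set.range (fun x : (expo n d : Set (Fin n →₀ ℕ)) => mono M hM x) =
      mono M hM '' (expo n d : Set (Fin n →₀ ℕ)) := by ext; simp
  rw [LinearIndepOn, linearIndependent_iff_card_eq_finrank_span, Set.finrank, e,
    span_mono_eq M hM h1 hs, finrank_bc, finrank_hom, ← card_expo]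
  simp

theorem transfer (Γ : Fin n → Fin n → D)
    (hΓ : ∀ i i', i ≠ i' → ∀ k l, Commute (Γ i k) (Γ i' l))
    (hMΓ : ∀ i, M i = ∑ k, Γ i k ⊗ₜ[K] X k)
    (hs : ∀ k, (1 : D) ⊗ₜ[K] (X k : MvPolynomial (Fin n) K) ∈ Submodule.span D (Set.range M))
    (U : ℕ → Submodule K (MvPolynomial (Fin n) K))
    (hU : ∀ d, U d ≤ homogeneousSubmodule (Fin n) K d) (p j : ℕ) :
    tt (sh D n) (Pd D n) (fun d => Pd D n d ⊓
      ((U d).baseChange D).comap (Finsupp.linearCombination D (mono M hM))) p j =
      tt (mX K n) (homogeneousSubmodule (Fin n) K) U p j := by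
  have h1 : ∀ i, M i ∈ Bd K D n 1 := fun i => by
    rw [hMΓ]
    exact Submodule.sum_mem _ fun k _ =>
      Submodule.tmul_mem_baseChange_of_mem _ (isHomogeneous_X _ _)
  have hli : LinearIndependent D M := by
    have := (mono_inj M hM h1 hs 1).comp
      (fun i : Fin n => (⟨Finsupp.single i 1, by simp [mem_expo]⟩ : (expo n 1 : Set (Fin n →₀ ℕ))))
      (fun i i' h => Finsupp.single_left_injective one_ne_zero (congrArg Subtype.val h))
    convert this using 1
    funext i
    simp [mono_single]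
  let Ψ := Finsupp.linearCombination D (mono M hM)
  let Θ := PhiL K Γ ∘ₗ Ψ.compLeft (Finset (Fin n))
  have hΨ : ∀ d, (Pd D n d).map Ψ = Bd K D n d := fun d => by
    rw [← span_mono_eq M hM h1 hs d, Finsupp.span_image_eq_map_linearCombination]
  have hinj : ∀ p, ∀ u ∈ ch n (Pd D n) p j, Θ u = 0 → u = 0 := by
    intro p u hu h0
    rw [mem_ch'] at hu
    have := PhiL_inj Γ hΓ M hMΓ hli p _ (fun F hF => by simp [hu.2 F fun h => hF h.1]) h0
    funext F
    by_cases hF : F.card = p ∧ p ≤ j
    · exact Submodule.disjoint_def.mp (linearIndepOn_iff_disjoint.mp (mono_inj M hM h1 hs (j - p)))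
        _ (hu.1 F hF.1 hF.2) (congrFun this F)
    · exact hu.2 F hF
  have hmap : ∀ (U : ℕ → Submodule K (MvPolynomial (Fin n) K)),
      (∀ d, U d ≤ homogeneousSubmodule (Fin n) K d) → ∀ p,
      (ch n (fun d => Pd D n d ⊓ ((U d).baseChange D).comap Ψ) p j).map Θ =
        ch n (fun d => (U d).baseChange D) p j := by
    intro U hU p
    have : ∀ d, FiniteDimensional K (U d) := fun d => Submodule.finiteDimensional_of_le (hU d)
    have := ch_fin (n := n) (fun d => (U d).baseChange D) p j
    have e : (fun d => (Pd D n d ⊓ ((U d).baseChange D).comap Ψ).map Ψ) =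
        fun d => (U d).baseChange D := by
      funext d
      rw [Submodule.map_inf_eq_map_inf_comap.symm, hΨ]
      exact inf_eq_right.mpr (Submodule.baseChange_mono _ (hU d))
    rw [Submodule.map_comp, ch_map, e]
    refine Submodule.eq_of_le_of_finrank_le (PhiL_ch Γ U p j) (le_of_eq (finrank_map_inj _ _ ?_).symm)
    intro w hw
    exact PhiL_inj Γ hΓ M hMΓ hli p w fun F hF => (mem_ch'.mp hw).2 F fun h => hF h.1
  have htop : ∀ p, (ch n (Pd D n) p j).map Θ = ch n (Bd K D n) p j := by
    intro p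
    rw [← hmap (homogeneousSubmodule (Fin n) K) (fun _ => le_rfl) p]
    congr 2
    funext d
    refine (inf_eq_left.mpr fun v hv => ?_).symm
    rw [Submodule.mem_comap, ← Bd, ← hΨ]
    exact ⟨v, hv, rfl⟩
  have hcomm : ∀ u, Θ (kos (sh D n) u) = kos (fun i => (mX K n i).baseChange D) (Θ u) := by
    intro u
    simp only [mX_bc, kos_rm, Θ, LinearMap.comp_apply]
    rw [PhiL_kos Γ hΓ M hMΓ, ← kos_rm,
      kos_comp (sh D n) (fun i => rm (M i)) Ψ fun i v => lc_shift M hM i v]
  have : ∀ d, FiniteDimensional K (U d) := fun d => Submodule.finiteDimensional_of_le (hU d)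
  rw [← tt_bc (D := D)]
  unfold tt
  have hB := kos_ch (sh D n) (Pd D n) sh_Pd p j
  have := ch_fin (n := n) (Pd D n) p j
  have hfin : FiniteDimensional D ((ch n (Pd D n) (p + 1) j).map (kos (sh D n)) ⊓
      ch n (fun d => Pd D n d ⊓ ((U d).baseChange D).comap Ψ) p j : Submodule D _) :=
    Submodule.finiteDimensional_of_le (inf_le_left.trans hB)
  refine (finrank_map_inj Θ ((ch n (Pd D n) (p + 1) j).map (kos (sh D n)) ⊓
      ch n (fun d => Pd D n d ⊓ ((U d).baseChange D).comap Ψ) p j)
    fun w hw => hinj p w (hB hw.1)).symm.trans (congrArg (fun Y : Submodule D _ => finrank D Y) ?_)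
  have eB : ((ch n (Pd D n) (p + 1) j).map (kos (sh D n))).map Θ =
      (ch n (Bd K D n) (p + 1) j).map (kos fun i => (mX K n i).baseChange D) := by
    rw [← htop, ← Submodule.map_comp, ← Submodule.map_comp]
    congr 1
    exact LinearMap.ext hcomm
  rw [← hmap U hU p, ← eB]
  apply le_antisymm (Submodule.map_inf_le _)
  rintro _ ⟨⟨b, hb, rfl⟩, a, ha, hab⟩
  have : a = b := sub_eq_zero.mp (hinj p _
    (sub_mem (ch_mono (fun _ => inf_le_left) p j ha) (hB hb)) (by rw [map_sub, hab, sub_self]))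
  exact ⟨b, ⟨hb, this ▸ ha⟩, rfl⟩

end transfer

/-- the exponent vector of a subset -/
noncomputable def ind (F : Finset (Fin n)) : Fin n →₀ ℕ := ∑ i ∈ F, Finsupp.single i 1

open Classical in
/-- the component of a chain of multidegree `ω` -/
noncomputable def pr (D : Type*) [DivisionRing D] (ω : Fin n →₀ ℕ) :
    (Finset (Fin n) → (Fin n →₀ ℕ) →₀ D) →ₗ[D] (Finset (Fin n) → (Fin n →₀ ℕ) →₀ D) where
  toFun u F := (u F).filter fun β => β + ind F = ω
  map_add' a b := funext fun F => Finsupp.filter_add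
  map_smul' d u := funext fun F => Finsupp.filter_smul

open Classical in
lemma pr_apply (ω : Fin n →₀ ℕ) (u : Finset (Fin n) → (Fin n →₀ ℕ) →₀ D) (F : Finset (Fin n))
    (β : Fin n →₀ ℕ) : pr D ω u F β = if β + ind F = ω then u F β else 0 := rfl

lemma pr_kos (ω : Fin n →₀ ℕ) (u : Finset (Fin n) → (Fin n →₀ ℕ) →₀ D) :
    pr D ω (kos (sh D n) u) = kos (sh D n) (pr D ω u) := by
  funext F
  ext β
  rw [pr_apply, kos_apply, kos_apply, Finsupp.finsetSum_apply, Finsupp.finsetSum_apply]
  have key : ∀ i ∈ Fᶜ, sh D n i (pr D ω u (insert i F)) β =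
      if β + ind F = ω then sh D n i (u (insert i F)) β else 0 := by
    intro i hi
    by_cases hβ : β ∈ Set.range fun γ : Fin n →₀ ℕ => γ + Finsupp.single i 1
    · obtain ⟨γ, rfl⟩ := hβ
      simp only [Finsupp.lmapDomain_apply]
      rw [Finsupp.mapDomain_apply (add_left_injective _),
        Finsupp.mapDomain_apply (add_left_injective _), pr_apply, ind,
        Finset.sum_insert (Finset.mem_compl.mp hi), ← add_assoc]
      rfl
    · simp only [Finsupp.lmapDomain_apply]
      rw [Finsupp.mapDomain_notin_range _ _ hβ, Finsupp.mapDomain_notin_range _ _ hβ, ite_self]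
  split_ifs with h
  · exact Finset.sum_congr rfl fun i hi => by
      rw [Finsupp.smul_apply, Finsupp.smul_apply, key i hi, if_pos h]
  · exact (Finset.sum_eq_zero fun i hi => by
      rw [Finsupp.smul_apply, key i hi, if_neg h, smul_zero]).symm

lemma tt_lead {Γ : Type*} [LinearOrder Γ] (κ : (Fin n →₀ ℕ) → Γ) (hκ : Function.Injective κ)
    (hκa : ∀ β γ e, κ β ≤ κ γ → κ (β + e) ≤ κ (γ + e))
    (W W' : ℕ → Submodule D ((Fin n →₀ ℕ) →₀ D)) (hW : ∀ d, W d ≤ Pd D n d)
    (hW' : ∀ d, ∀ w ∈ W d, ∀ β, w β ≠ 0 → (∀ γ ∈ w.support, κ β ≤ κ γ) →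
      Finsupp.single β (w β) ∈ W' d) (p j : ℕ) :
    tt (sh D n) (Pd D n) W p j ≤ tt (sh D n) (Pd D n) W' p j := by
  classical
  have hB := kos_ch (sh D n) (Pd D n) sh_Pd p j
  have := ch_fin (n := n) (Pd D n) p j
  have hfin : ∀ W : ℕ → Submodule D ((Fin n →₀ ℕ) →₀ D), FiniteDimensional D
      ((ch n (Pd D n) (p + 1) j).map (kos (sh D n)) ⊓ ch n W p j : Submodule D _) := fun W =>
    Submodule.finiteDimensional_of_le (inf_le_left.trans hB)
  have := hfin W
  have := hfin W'
  refine lead κ (pr D) (fun ω v => ?_) (fun ω ω' v h => ?_) (fun v h => ?_)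
    ((Finset.univ ×ˢ expo n (j - p)).image fun q => q.2 + ind q.1) _ _ ?_ ?_
  · funext F
    ext β
    simp only [pr_apply]
    split_ifs <;> rfl
  · funext F
    ext β
    simp only [pr_apply]
    split_ifs with h1 h2
    · exact absurd (h1.symm.trans h2) h
    · rfl
    · rfl
  · funext F
    ext β
    have := congrArg (fun u => u F β) (h (β + ind F))
    simpa [pr_apply] using this
  · intro w hw ω hω
    have h := mem_ch'.mp (hB hw.1)
    funext F
    ext β
    rw [pr_apply]
    split_ifs with h1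
    · by_contra hne
      by_cases hF : F.card = p ∧ p ≤ j
      · exact hω (Finset.mem_image.mpr ⟨(F, β), Finset.mem_product.mpr ⟨Finset.mem_univ _,
          h.1 F hF.1 hF.2 (Finsupp.mem_support_iff.mpr hne)⟩, h1⟩)
      · exact hne (by simp [h.2 F hF])
    · rfl
  · rintro w ⟨⟨u, hu, rfl⟩, hw⟩ ω hω
    refine ⟨⟨pr D ω u, ?_, (pr_kos ω u).symm⟩, ?_⟩
    · rw [SetLike.mem_coe, mem_ch'] at hu ⊢
      refine ⟨fun F h1 h2 β hβ => hu.1 F h1 h2 ?_, fun F h => ?_⟩
      · rw [Finset.mem_coe, Finsupp.mem_support_iff, pr_apply] at hβ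
        rw [Finset.mem_coe, Finsupp.mem_support_iff]
        intro h
        simp [h] at hβ
      · ext β
        simp [pr_apply, hu.2 F h]
    · generalize kos (sh D n) u = w at hw hω
      rw [SetLike.mem_coe, mem_ch'] at hw ⊢
      refine ⟨fun F h1 h2 => ?_, fun F h => ?_⟩
      · by_cases h0 : pr D ω w F = 0
        · rw [h0]; exact zero_mem _
        obtain ⟨β, hβ⟩ := Finsupp.ne_iff.mp h0
        rw [pr_apply, Finsupp.zero_apply] at hβ
        have hβ1 : β + ind F = ω := by
          by_contra h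
          exact hβ (if_neg h)
        rw [if_pos hβ1] at hβ
        have e : pr D ω w F = Finsupp.single β (w F β) := by
          ext γ
          rw [pr_apply, Finsupp.single_apply, ← hβ1]
          by_cases h : β = γ
          · simp [h]
          · rw [if_neg h, if_neg fun h' => h (add_right_cancel h').symm]
        rw [e]
        refine hW' _ _ (hw.1 F h1 h2) β hβ fun γ hγ => ?_
        have h3 := hω (γ + ind F) fun h => Finsupp.mem_support_iff.mp hγ (by
          have := congrArg (fun u => u F γ) h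
          simpa [pr_apply] using this)
        rw [← hβ1] at h3
        by_contra hlt
        have h4 := hκa _ _ (ind F) (not_le.mp hlt).le
        have := add_right_cancel (hκ (le_antisymm h3 h4))
        exact hlt (this ▸ le_rfl)
      · ext β
        simp [pr_apply, hw.2 F h]

lemma mono_X (h : ∀ i j : Fin n, Commute ((1 : D) ⊗ₜ[K] (X i : MvPolynomial (Fin n) K))
    ((1 : D) ⊗ₜ[K] X j)) (β : Fin n →₀ ℕ) :
    mono (fun k => (1 : D) ⊗ₜ[K] (X k : MvPolynomial (Fin n) K)) h β =
      (1 : D) ⊗ₜ[K] monomial β 1 := by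
  induction β using Finsupp.induction_linear with
  | zero => rw [mono_zero]; rfl
  | add β γ hβ hγ => rw [mono_add, hβ, hγ]; simp [monomial_mul]
  | single i a => rw [mono_single]; simp [X_pow_eq_monomial]

variable (M : Fin n → D ⊗[K] MvPolynomial (Fin n) K) (hM : ∀ i j, Commute (M i) (M j))

include hM in
theorem frameB (I : Ideal (MvPolynomial (Fin n) K)) (Γ : Fin n → Fin n → D)
    (hΓ : ∀ i i', i ≠ i' → ∀ k l, Commute (Γ i k) (Γ i' l))
    (hMΓ : ∀ i, M i = ∑ k, Γ i k ⊗ₜ[K] X k)
    (hs : ∀ k, (1 : D) ⊗ₜ[K] (X k : MvPolynomial (Fin n) K) ∈ Submodule.span D (Set.range M))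
    (c : ℕ) (b : Fin n → ℕ)
    (hpow : ∀ i : Fin n, (i : ℕ) < c → ∃ u ∈ (ipart I (b i + 1)).baseChange D,
      ∃ w : Fin n → D ⊗[K] MvPolynomial (Fin n) K, (∀ k, w k ∈ Bd K D n (b i)) ∧
        M i ^ (b i + 1) = u + ∑ k ∈ Finset.univ.filter (fun k : Fin n => c ≤ k), w k * M k) :
    ∃ J : Set (Fin n →₀ ℕ), (∀ β ∈ J, ∀ i, β + Finsupp.single i 1 ∈ J) ∧
      (∀ i : Fin n, (i : ℕ) < c → Finsupp.single i (b i + 1) ∈ J) ∧
      (∀ d (T : Finset (Fin n →₀ ℕ)), (∀ β, β ∈ T ↔ β ∈ J ∧ β.degree = d) →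
        T.card = finrank K (ipart I d)) ∧
      ∀ p j, tt (mX K n) (homogeneousSubmodule (Fin n) K) (ipart I) p j ≤
        tt (mX K n) (homogeneousSubmodule (Fin n) K)
          (ipart (Ideal.span ((fun β => (monomial β 1 : MvPolynomial (Fin n) K)) '' J))) p j := by
  have h1 : ∀ i, M i ∈ Bd K D n 1 := fun i => by
    rw [hMΓ]
    exact Submodule.sum_mem _ fun k _ =>
      Submodule.tmul_mem_baseChange_of_mem _ (isHomogeneous_X _ _)
  classical
  let Ψ := Finsupp.linearCombination D (mono M hM)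
  let m : MonomialOrder (Fin n) := MonomialOrder.lex
  let κ : (Fin n →₀ ℕ) → ℕ ×ₗ m.syn := fun β =>
    toLex (∑ k ∈ Finset.univ.filter (fun k : Fin n => c ≤ k), β k, m.toSyn β)
  have hκ : Function.Injective κ := by
    intro β γ h
    have := congrArg (fun x => (ofLex x).2) h
    exact m.toSyn.injective this
  have hκa : ∀ β γ e, κ β ≤ κ γ → κ (β + e) ≤ κ (γ + e) := by
    intro β γ e h
    simp only [κ, Prod.Lex.toLex_le_toLex, Finsupp.add_apply, Finset.sum_add_distrib,
      map_add] at h ⊢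
    rcases h with h | ⟨h, h'⟩
    · left; omega
    · right; exact ⟨by omega, by gcongr⟩
  let W : ℕ → Submodule D ((Fin n →₀ ℕ) →₀ D) := fun d =>
    Finsupp.supported D D (expo n d : Set (Fin n →₀ ℕ)) ⊓ ((ipart I d).baseChange D).comap Ψ
  have hsurj : ∀ d, ∀ y ∈ Bd K D n d,
      ∃ v ∈ Finsupp.supported D D (expo n d : Set (Fin n →₀ ℕ)), Ψ v = y := by
    intro d y hy
    have := Bd_le_span M hM hs d hy
    rw [Finsupp.span_image_eq_map_linearCombination] at this
    exact this
  have hinj : ∀ d, Disjoint (Finsupp.supported D D (expo n d : Set (Fin n →₀ ℕ)))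
      (LinearMap.ker Ψ) := by
    intro d
    rw [← linearIndepOn_iff_disjoint]
    have e : Set.range (fun x : (expo n d : Set (Fin n →₀ ℕ)) => mono M hM x) =
        mono M hM '' (expo n d : Set (Fin n →₀ ℕ)) := by ext; simp
    rw [LinearIndepOn, linearIndependent_iff_card_eq_finrank_span, Set.finrank, e]
    have e2 : Submodule.span D (mono M hM '' (expo n d : Set (Fin n →₀ ℕ))) = Bd K D n d := by
      refine le_antisymm ?_ (Bd_le_span M hM hs d)
      rw [Submodule.span_le]
      rintro _ ⟨β, hβ, rfl⟩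
      have := mono_mem M hM h1 β
      rwa [mem_expo.mp hβ] at this
    rw [e2, finrank_bc, finrank_hom, ← card_expo]
    simp
  have hshift : ∀ d i, ∀ v ∈ Finsupp.supported D D (expo n d : Set (Fin n →₀ ℕ)),
      v.mapDomain (· + Finsupp.single i 1) ∈
        Finsupp.supported D D (expo n (d + 1) : Set (Fin n →₀ ℕ)) := by
    intro d i v hv γ hγ
    obtain ⟨δ, hδ, rfl⟩ := Finset.mem_image.mp (Finsupp.mapDomain_support hγ)
    have := mem_expo.mp (hv hδ)
    rw [Finset.mem_coe, mem_expo, map_add, this, Finsupp.degree_single]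
  refine ⟨{β | ∃ w ∈ W β.degree, w β ≠ 0 ∧ ∀ γ ∈ w.support, κ β ≤ κ γ}, ?_, ?_, ?_, ?_⟩
  · rintro β ⟨w, ⟨hw1, hw2⟩, hw0, hwm⟩ i
    refine ⟨w.mapDomain (· + Finsupp.single i 1), ?_, ?_, ?_⟩
    · rw [map_add, Finsupp.degree_single]
      refine ⟨hshift _ i w hw1, ?_⟩
      refine Submodule.mem_comap.mpr ?_
      rw [lc_shift]
      exact bc_mul (p := ipart I β.degree) (r := ipart I (β.degree + 1))
        (fun x hx y hy => ⟨Ideal.mul_mem_right _ _ hx.1, IsHomogeneous.mul hx.2 hy⟩) hw2 (h1 i)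
    · rwa [Finsupp.mapDomain_apply (add_left_injective _)]
    · intro γ hγ
      obtain ⟨δ, hδ, rfl⟩ := Finset.mem_image.mp (Finsupp.mapDomain_support hγ)
      exact hκa _ _ _ (hwm δ hδ)
  · intro i hi
    obtain ⟨u, hu, w, hw, e⟩ := hpow i hi
    choose v hv hv' using fun k => hsurj _ _ (hw k)
    let r := ∑ k ∈ Finset.univ.filter (fun k : Fin n => c ≤ k),
      (v k).mapDomain (· + Finsupp.single k 1)
    have hr : ∀ γ, r γ ≠ 0 → 0 < ∑ k ∈ Finset.univ.filter (fun k : Fin n => c ≤ k), γ k := by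
      intro γ hγ
      rw [Finsupp.finsetSum_apply] at hγ
      obtain ⟨k, hk, hγ⟩ := Finset.exists_ne_zero_of_sum_ne_zero hγ
      obtain ⟨δ, _, rfl⟩ :=
        Finset.mem_image.mp (Finsupp.mapDomain_support (Finsupp.mem_support_iff.mpr hγ))
      refine lt_of_lt_of_le ?_ (Finset.single_le_sum (fun _ _ => Nat.zero_le _) hk)
      simp
    have h0 : ∑ k ∈ Finset.univ.filter (fun k : Fin n => c ≤ k),
        (Finsupp.single i (b i + 1)) k = 0 := by
      refine Finset.sum_eq_zero fun k hk => Finsupp.single_eq_of_ne ?_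
      rintro rfl
      simp at hk; omega
    refine ⟨Finsupp.single (Finsupp.single i (b i + 1)) 1 - r, ?_, ?_, ?_⟩
    · rw [Finsupp.degree_single]
      refine ⟨sub_mem (Finsupp.single_mem_supported _ _ (by simp [mem_expo]))
        (Submodule.sum_mem _ fun k _ => hshift _ k _ (hv k)), ?_⟩
      refine Submodule.mem_comap.mpr ?_
      rw [map_sub, map_sum]
      simp only [Ψ, lc_shift, Finsupp.linearCombination_single, one_smul, mono_single]
      simp only [Ψ] at hv'
      simp only [hv', e, add_sub_cancel_right]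
      exact hu
    · have : r (Finsupp.single i (b i + 1)) = 0 := by
        by_contra hne
        have := hr _ hne
        omega
      rw [Finsupp.sub_apply, this, Finsupp.single_eq_same, sub_zero]
      exact one_ne_zero
    · intro γ hγ
      by_cases hγ' : γ = Finsupp.single i (b i + 1)
      · rw [hγ']
      · have : r γ ≠ 0 := by
          intro h
          apply Finsupp.mem_support_iff.mp hγ
          rw [Finsupp.sub_apply, h, Finsupp.single_eq_of_ne hγ', sub_zero]
        have := hr _ this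
        simp only [κ, Prod.Lex.toLex_le_toLex]
        left; omega
  · intro d T hT
    have hfin : FiniteDimensional D (W d) := by
      have : FiniteDimensional D (Finsupp.supported D D (expo n d : Set (Fin n →₀ ℕ))) :=
        Module.Finite.equiv (Finsupp.supportedEquivFinsupp _).symm
      exact Submodule.finiteDimensional_of_le inf_le_left
    rw [card_lead κ hκ (W d) T, ← finrank_bc (D := D)]
    · have e : (W d).map Ψ = (ipart I d).baseChange D := by
        apply le_antisymm
        · rintro _ ⟨w, hw, rfl⟩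
          exact hw.2
        · intro y hy
          obtain ⟨v, hv, rfl⟩ := hsurj d y (Submodule.baseChange_mono _ inf_le_right hy)
          exact ⟨v, ⟨hv, hy⟩, rfl⟩
      rw [← e]
      have hi : Function.Injective (Ψ.domRestrict (W d)) := by
        rw [injective_iff_map_eq_zero]
        intro w hw
        exact Subtype.ext (Submodule.disjoint_def.mp (hinj d) w w.2.1 hw)
      rw [← LinearMap.range_domRestrict, LinearMap.finrank_range_of_inj hi]
    · intro β
      rw [hT]
      constructor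
      · rintro ⟨h, rfl⟩
        exact h
      · rintro ⟨w, hw, hw0, hwm⟩
        have : β.degree = d := mem_expo.mp (hw.1 (Finsupp.mem_support_iff.mpr hw0))
        subst this
        exact ⟨⟨w, hw, hw0, hwm⟩, rfl⟩
  · intro p j
    have hX : ∀ i j : Fin n, Commute ((1 : D) ⊗ₜ[K] (X i : MvPolynomial (Fin n) K))
        ((1 : D) ⊗ₜ[K] X j) := fun _ _ => one_tmul_comm _ _
    rw [← transfer M hM Γ hΓ hMΓ hs _ (fun _ => inf_le_right),
      ← transfer (fun k => (1 : D) ⊗ₜ[K] (X k : MvPolynomial (Fin n) K))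
        hX (fun i k => if i = k then 1 else 0)
        (fun i i' _ k l => by split_ifs <;> simp) (fun i => by simp [ite_tmul])
        (fun k => Submodule.subset_span ⟨k, rfl⟩) _ (fun _ => inf_le_right)]
    refine tt_lead κ hκ hκa W _ (fun _ => inf_le_left) (fun d w hw β h0 hm => ?_) p j
    have hd : β ∈ expo n d := hw.1 (Finsupp.mem_support_iff.mpr h0)
    refine ⟨Finsupp.single_mem_supported _ _ hd, Submodule.mem_comap.mpr ?_⟩
    rw [Finsupp.linearCombination_single, mono_X]
    have hd' := mem_expo.mp hd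
    subst hd'
    exact Submodule.smul_mem _ _ (Submodule.tmul_mem_baseChange_of_mem _
      ⟨Ideal.subset_span ⟨β, ⟨w, hw, h0, hm⟩, rfl⟩, isHomogeneous_monomial _ rfl⟩)

end Vale.Agent.P200L
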