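import Vale.Agent.P200L.Mod
import Mathlib.RingTheory.RootsOfUnity.AlgebraicallyClosed

/-! Quantum characteristic. -/

namespace Vale.Agent.P200L

open Module P200

variable {k : Type*} [Field k]

theorem good_of [IsAlgClosed k] {a : ℕ} (h2 : 2 ≤ a) (h : (a : k) ≠ 0 ∨ a.Prime) :
    Good k a := by
  by_cases h0 : (a : k) = 0
  · have hp : a.Prime := h.resolve_left (fun h => h h0)
    refine ⟨1, by simpa using h0, fun i hi hia hs => ?_⟩
    have hi0 : (i : k) = 0 := by simpa using hs
    have hc : Nat.Coprime i a :=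
      (Nat.Coprime.symm ((Nat.Prime.coprime_iff_not_dvd hp).2 (Nat.not_dvd_of_pos_of_lt hi hia)))
    have hz : IsCoprime ((i : ℤ) : k) ((a : ℤ) : k) := by
      have := (Nat.isCoprime_iff_coprime.2 hc).map (Int.castRingHom k)
      simpa using this
    obtain ⟨u, v, huv⟩ := hz
    simp [hi0, h0] at huv
  · have : NeZero (a : k) := ⟨h0⟩
    have : NeZero a := ⟨by omega⟩
    obtain ⟨ζ, hζ⟩ := HasEnoughRootsOfUnity.exists_primitiveRoot k a
    refine ⟨ζ, hζ.geom_sum_eq_zero (by omega), fun i hi hia hs => ?_⟩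
    have h1 : ζ ^ i = 1 := by
      have := mul_geom_sum ζ i
      rw [hs, mul_zero] at this
      exact (sub_eq_zero.1 this.symm)
    exact hζ.pow_ne_one_of_pos_of_lt (by omega) hia h1

end Vale.Agent.P200L
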