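import Vale.Agent.P200L.Fin

namespace Vale.Agent.Results.P200.LexPlusPowers

open MvPolynomial Vale.Agent.P200L

/-- The lex-plus-powers subspace is an ideal when all degrees from the third one on are equal,
and it has the largest graded Betti numbers when all degrees are equal. -/
theorem result {K : Type*} [Field K] {n c : ℕ} (hc : c ≤ n) (a : Fin c → ℕ)
    (h2 : ∀ i, 2 ≤ a i) (hmono : Monotone a)
    (htop : ∀ i j : Fin c, 2 ≤ (i : ℕ) → 2 ≤ (j : ℕ) → a i = a j)
    (f : Fin c → MvPolynomial (Fin n) K) (hf : ∀ i, (f i).IsHomogeneous (a i))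
    (hreg : RingTheory.Sequence.IsWeaklyRegular (MvPolynomial (Fin n) K) (List.ofFn f))
    (I : Ideal (MvPolynomial (Fin n) K)) (hI : ∀ i, f i ∈ I) :
    ∃ J : Ideal (MvPolynomial (Fin n) K), J.restrictScalars K = lpp I (pw K hc a) ∧
      ((∀ i i', a i = a i') → (∀ i, (a i : K) ≠ 0 ∨ (a i).Prime) →
        ∀ p j : ℕ, betti I p j ≤ betti J p j) :=
  lpp_main hc a h2 hmono htop f hf ((Vale.Agent.P200.isReg_iff f).mpr hreg) I hI

end Vale.Agent.Results.P200.LexPlusPowers
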