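import Vale.Agent.P200L.Car
import Vale.Agent.P200.Frame

/-! Linear algebra on Koszul chains. -/

namespace Vale.Agent.P200L

open Module MvPolynomial

variable {n : ℕ}

section gen
variable {R V V' : Type*} [DivisionRing R] [AddCommGroup V] [Module R V] [AddCommGroup V']
  [Module R V']

lemma mem_ch {G : ℕ → Submodule R V} {p j : ℕ} {u : Finset (Fin n) → V} :
    u ∈ ch n G p j ↔ ∀ F, u F ∈ if F.card = p ∧ p ≤ j then G (j - p) else ⊥ := by
  simp [ch, Submodule.mem_pi]

lemma mem_ch' {G : ℕ → Submodule R V} {p j : ℕ} {u : Finset (Fin n) → V} :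
    u ∈ ch n G p j ↔ (∀ F, F.card = p → p ≤ j → u F ∈ G (j - p)) ∧
      ∀ F, ¬(F.card = p ∧ p ≤ j) → u F = 0 := by
  rw [mem_ch]
  constructor
  · intro h
    refine ⟨fun F h1 h2 => ?_, fun F h1 => ?_⟩
    · simpa [h1, h2] using h F
    · simpa [h1] using h F
  · rintro ⟨h1, h2⟩ F
    split_ifs with h
    · exact h1 F h.1 h.2
    · exact h2 F h

lemma ch_mono {G U : ℕ → Submodule R V} (h : ∀ d, U d ≤ G d) (p j : ℕ) :
    ch n U p j ≤ ch n G p j := by
  intro u hu
  rw [mem_ch'] at hu ⊢
  exact ⟨fun F h1 h2 => h _ (hu.1 F h1 h2), hu.2⟩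

lemma pi_range {ι : Type*} (H : ι → Submodule R V) :
    LinearMap.range (LinearMap.pi fun F => (H F).subtype ∘ₗ
      LinearMap.proj (R := R) (φ := fun F => H F) F) = Submodule.pi Set.univ H := by
  ext u
  constructor
  · rintro ⟨v, rfl⟩ F _
    exact (v F).2
  · intro hu
    exact ⟨fun F => ⟨u F, hu F trivial⟩, rfl⟩

lemma ch_fin (G : ℕ → Submodule R V) [∀ d, FiniteDimensional R (G d)] (p j : ℕ) :
    FiniteDimensional R (ch n G p j) := by
  have : ∀ F : Finset (Fin n), FiniteDimensional R
      (if F.card = p ∧ p ≤ j then G (j - p) else ⊥ : Submodule R V) := fun F => by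
    by_cases h : F.card = p ∧ p ≤ j
    · rw [if_pos h]; infer_instance
    · rw [if_neg h]; infer_instance
  rw [ch, ← pi_range]
  infer_instance

lemma finrank_ch (G : ℕ → Submodule R V) [∀ d, FiniteDimensional R (G d)] (p j : ℕ) :
    finrank R (ch n G p j) =
      ∑ F : Finset (Fin n), if F.card = p ∧ p ≤ j then finrank R (G (j - p)) else 0 := by
  have : ∀ F : Finset (Fin n), FiniteDimensional R
      (if F.card = p ∧ p ≤ j then G (j - p) else ⊥ : Submodule R V) := fun F => by
    by_cases h : F.card = p ∧ p ≤ j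
    · rw [if_pos h]; infer_instance
    · rw [if_neg h]; infer_instance
  rw [ch, ← pi_range, LinearMap.finrank_range_of_inj, Module.finrank_pi_fintype]
  · refine Finset.sum_congr rfl fun F _ => ?_
    by_cases h : F.card = p ∧ p ≤ j
    · rw [if_pos h, if_pos h]
    · rw [if_neg h, if_neg h, finrank_bot]
  · intro v w h
    funext F
    exact Subtype.ext (congrFun h F)

lemma kos_ch (T : Fin n → V →ₗ[R] V) (G : ℕ → Submodule R V)
    (hT : ∀ i d, ∀ v ∈ G d, T i v ∈ G (d + 1)) (p j : ℕ) :
    (ch n G (p + 1) j).map (kos T) ≤ ch n G p j := by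
  rintro _ ⟨u, hu, rfl⟩
  rw [SetLike.mem_coe, mem_ch'] at hu
  rw [mem_ch']
  refine ⟨fun F h1 h2 => ?_, fun F h1 => ?_⟩
  · rw [kos_apply]
    refine Submodule.sum_mem _ fun i hi => zsmul_mem ?_ _
    have hc : (insert i F).card = p + 1 := by
      rw [Finset.card_insert_of_notMem (Finset.mem_compl.mp hi), h1]
    by_cases h3 : p + 1 ≤ j
    · have := hT i _ _ (hu.1 _ hc h3)
      rwa [show j - (p + 1) + 1 = j - p by omega] at this
    · rw [hu.2 _ (fun h => h3 h.2), map_zero]
      exact zero_mem _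
  · rw [kos_apply]
    refine Finset.sum_eq_zero fun i hi => ?_
    rw [hu.2, map_zero, smul_zero]
    rw [Finset.card_insert_of_notMem (Finset.mem_compl.mp hi)]
    omega

lemma kos_zero (T : Fin n → V →ₗ[R] V) (G : ℕ → Submodule R V) (j : ℕ) :
    (ch n G 0 j).map (kos T) = ⊥ := by
  rw [eq_bot_iff]
  rintro _ ⟨u, hu, rfl⟩
  rw [SetLike.mem_coe, mem_ch'] at hu
  rw [Submodule.mem_bot]
  funext F
  rw [kos_apply]
  refine Finset.sum_eq_zero fun i hi => ?_
  rw [hu.2, map_zero, smul_zero]
  rw [Finset.card_insert_of_notMem (Finset.mem_compl.mp hi)]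
  omega

lemma rank_null (f : V →ₗ[R] V') (W : Submodule R V) [FiniteDimensional R W] :
    finrank R (W ⊓ LinearMap.ker f : Submodule R V) + finrank R (W.map f) = finrank R W := by
  have := LinearMap.finrank_range_add_finrank_ker (f.domRestrict W)
  rw [LinearMap.range_domRestrict, LinearMap.ker_domRestrict,
    ← Submodule.finrank_map_subtype_eq, Submodule.map_comap_subtype] at this
  omega

lemma finrank_map_inj (f : V →ₗ[R] V') (W : Submodule R V) [FiniteDimensional R W]
    (h : ∀ w ∈ W, f w = 0 → w = 0) : finrank R (W.map f) = finrank R W := by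
  have := rank_null f W
  have e : W ⊓ LinearMap.ker f = ⊥ := by
    rw [eq_bot_iff]
    intro w hw
    exact h w hw.1 hw.2
  rwa [e, finrank_bot, zero_add] at this

lemma lead {Ω Γ : Type*} [LinearOrder Γ] (κ : Ω → Γ) (π : Ω → V →ₗ[R] V)
    (h1 : ∀ ω v, π ω (π ω v) = π ω v) (h2 : ∀ ω ω' v, ω ≠ ω' → π ω (π ω' v) = 0)
    (h3 : ∀ v, (∀ ω, π ω v = 0) → v = 0) (s : Finset Ω) :
    ∀ (W T : Submodule R V) [FiniteDimensional R W] [FiniteDimensional R T],
      (∀ w ∈ W, ∀ ω ∉ s, π ω w = 0) →
      (∀ w ∈ W, ∀ ω, (∀ ω', π ω' w ≠ 0 → κ ω ≤ κ ω') → π ω w ∈ T) →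
      finrank R W ≤ finrank R T := by
  classical
  induction s using Finset.induction_on_min_value κ with
  | empty =>
    intro W T _ _ hs _
    have : W = ⊥ := by
      rw [eq_bot_iff]
      intro w hw
      exact h3 w fun ω => hs w hw ω (by simp)
    rw [this, finrank_bot]
    exact Nat.zero_le _
  | insert a s ha hmin ih =>
    intro W T _ _ hs hT
    have : FiniteDimensional R (W ⊓ LinearMap.ker (π a) : Submodule R V) :=
      Submodule.finiteDimensional_of_le inf_le_left
    have : FiniteDimensional R (T ⊓ LinearMap.ker (π a) : Submodule R V) :=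
      Submodule.finiteDimensional_of_le inf_le_left
    have e1 := ih (W ⊓ LinearMap.ker (π a)) (T ⊓ LinearMap.ker (π a))
      (fun w hw ω hω => by
        by_cases h : ω = a
        · rw [h]; exact hw.2
        · exact hs w hw.1 ω (by simp [h, hω]))
      (fun w hw ω hω => ⟨hT w hw.1 ω hω, by
        by_cases h : a = ω
        · rw [← h, show π a w = 0 from hw.2]; exact zero_mem _
        · exact h2 _ _ _ h⟩)
    have e2 : W.map (π a) ≤ T.map (π a) := by
      rintro _ ⟨w, hw, rfl⟩
      refine ⟨π a w, hT w hw a fun ω' hω' => ?_, h1 a w⟩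
      have : ω' ∈ insert a s := by
        by_contra hn
        exact hω' (hs w hw ω' hn)
      rcases Finset.mem_insert.mp this with h | h
      · rw [h]
      · exact hmin _ h
    have e3 := Submodule.finrank_mono e2
    have e4 := rank_null (π a) W
    have e5 := rank_null (π a) T
    omega

/-- dimension of the boundaries with coefficients in `U` -/
noncomputable def tt (T : Fin n → V →ₗ[R] V) (G U : ℕ → Submodule R V) (p j : ℕ) : ℕ :=
  finrank R ((ch n G (p + 1) j).map (kos T) ⊓ ch n U p j : Submodule R _)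

lemma kos_comp (T : Fin n → V →ₗ[R] V) (T' : Fin n → V' →ₗ[R] V') (f : V →ₗ[R] V')
    (h : ∀ i v, f (T i v) = T' i (f v)) (u : Finset (Fin n) → V) :
    f.compLeft _ (kos T u) = kos T' (f.compLeft _ u) := by
  funext F
  simp [kos_apply, map_sum, h]

lemma ch_map (G : ℕ → Submodule R V) (f : V →ₗ[R] V') (p j : ℕ) :
    (ch n G p j).map (f.compLeft _) = ch n (fun d => (G d).map f) p j := by
  classical
  apply le_antisymm
  · rintro _ ⟨u, hu, rfl⟩
    rw [SetLike.mem_coe, mem_ch'] at hu
    rw [mem_ch']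
    exact ⟨fun F h1 h2 => ⟨u F, hu.1 F h1 h2, rfl⟩, fun F h => by simp [hu.2 F h]⟩
  · intro v hv
    rw [mem_ch'] at hv
    have : ∀ F : Finset (Fin n), ∃ w, (F.card = p → p ≤ j → w ∈ G (j - p)) ∧
        (¬(F.card = p ∧ p ≤ j) → w = 0) ∧ f w = v F := by
      intro F
      by_cases h : F.card = p ∧ p ≤ j
      · obtain ⟨w, hw, e⟩ := hv.1 F h.1 h.2
        exact ⟨w, fun _ _ => hw, fun h' => absurd h h', e⟩
      · exact ⟨0, fun h1 h2 => absurd ⟨h1, h2⟩ h, fun _ => rfl, by rw [hv.2 F h, map_zero]⟩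
    choose w h1 h2 h3 using this
    exact ⟨w, mem_ch'.mpr ⟨h1, h2⟩, funext h3⟩

end gen

section betti
variable {K : Type*} [Field K]

/-- Koszul cycles of homological degree `p` and internal degree `j`. -/
noncomputable def cyc (I : Ideal (MvPolynomial (Fin n) K)) (p j : ℕ) :
    Submodule K (Finset (Fin n) → MvPolynomial (Fin n) K ⧸ I) :=
  LinearMap.ker (qkos I) ⊓ ch n (qdeg I) p j

/-- Koszul boundaries of homological degree `p` and internal degree `j`. -/
noncomputable def bdry (I : Ideal (MvPolynomial (Fin n) K)) (p j : ℕ) :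
    Submodule K (Finset (Fin n) → MvPolynomial (Fin n) K ⧸ I) :=
  (ch n (qdeg I) (p + 1) j).map (qkos I)

/-- multiplication by the variables -/
noncomputable abbrev mX (K : Type*) [Field K] (n : ℕ) :
    Fin n → MvPolynomial (Fin n) K →ₗ[K] MvPolynomial (Fin n) K :=
  fun i => LinearMap.mulRight K (X i)

lemma mX_hom (i : Fin n) (d : ℕ) : ∀ v ∈ homogeneousSubmodule (Fin n) K d,
    mX K n i v ∈ homogeneousSubmodule (Fin n) K (d + 1) := fun _ hv =>
  IsHomogeneous.mul hv (isHomogeneous_X K i)

instance qdegFin (I : Ideal (MvPolynomial (Fin n) K)) (d : ℕ) : FiniteDimensional K (qdeg I d) := by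
  unfold qdeg
  infer_instance

lemma betti_eq (I : Ideal (MvPolynomial (Fin n) K)) (p j : ℕ) :
    betti I p j + finrank K (bdry I p j) + finrank K ((ch n (qdeg I) p j).map (qkos I)) =
      finrank K (ch n (qdeg I) p j) := by
  have := ch_fin (n := n) (qdeg I) p j
  have : FiniteDimensional K (cyc I p j) := Submodule.finiteDimensional_of_le inf_le_right
  have hle : bdry I p j ≤ cyc I p j := by
    refine le_inf ?_ (kos_ch _ _ ?_ p j)
    · rintro _ ⟨u, -, rfl⟩
      exact kos_kos _ (fun i k v => by simp [mul_right_comm]) u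
    · rintro i d _ ⟨v, hv, rfl⟩
      exact ⟨_, mX_hom i d v hv, by simp⟩
  have e1 := Submodule.finrank_quotient_add_finrank ((bdry I p j).comap (cyc I p j).subtype)
  rw [(Submodule.comapSubtypeEquivOfLe hle).finrank_eq] at e1
  have e2 := rank_null (qkos I) (ch n (qdeg I) p j)
  rw [inf_comm] at e2
  have e3 : betti I p j =
      finrank K (↥(cyc I p j) ⧸ (bdry I p j).comap (cyc I p j).subtype) := rfl
  have e4 : finrank K (cyc I p j) =
      finrank K (LinearMap.ker (qkos I) ⊓ ch n (qdeg I) p j : Submodule K _) := rfl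
  omega

lemma bdry_eq (I : Ideal (MvPolynomial (Fin n) K)) (p j : ℕ) :
    tt (mX K n) (homogeneousSubmodule (Fin n) K) (P200.ipart I) p j + finrank K (bdry I p j) =
      finrank K ((ch n (homogeneousSubmodule (Fin n) K) (p + 1) j).map (kos (mX K n))) := by
  have := ch_fin (n := n) (homogeneousSubmodule (Fin n) K) (p + 1) j
  let q := (Ideal.Quotient.mkₐ K I).toLinearMap
  have e := rank_null (q.compLeft (Finset (Fin n)))
    ((ch n (homogeneousSubmodule (Fin n) K) (p + 1) j).map (kos (mX K n)))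
  have e1 : ((ch n (homogeneousSubmodule (Fin n) K) (p + 1) j).map (kos (mX K n))).map
      (q.compLeft (Finset (Fin n))) = bdry I p j := by
    have : qdeg I = fun d => (homogeneousSubmodule (Fin n) K d).map q := rfl
    rw [bdry, this, ← ch_map, ← Submodule.map_comp, ← Submodule.map_comp]
    congr 1
    refine LinearMap.ext fun u => ?_
    exact kos_comp (mX K n) _ q (fun i v => by simp [q]) u
  have e2 : (ch n (homogeneousSubmodule (Fin n) K) (p + 1) j).map (kos (mX K n)) ⊓
      LinearMap.ker (q.compLeft (Finset (Fin n))) =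
      (ch n (homogeneousSubmodule (Fin n) K) (p + 1) j).map (kos (mX K n)) ⊓
        ch n (P200.ipart I) p j := by
    apply le_antisymm
    · rintro u ⟨h1, h2⟩
      refine ⟨h1, ?_⟩
      have h3 := mem_ch'.mp (kos_ch _ _ mX_hom p j h1)
      exact mem_ch'.mpr ⟨fun F a b => ⟨Ideal.Quotient.eq_zero_iff_mem.mp (congrFun h2 F),
        h3.1 F a b⟩, h3.2⟩
    · rintro u ⟨h1, h2⟩
      refine ⟨h1, funext fun F => ?_⟩
      have h3 := mem_ch'.mp h2
      by_cases h : F.card = p ∧ p ≤ j
      · exact Ideal.Quotient.eq_zero_iff_mem.mpr (h3.1 F h.1 h.2).1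
      · simp [h3.2 F h]
  rw [e1, e2] at e
  exact e

lemma qdeg_eq (I : Ideal (MvPolynomial (Fin n) K)) (d : ℕ) :
    finrank K (P200.ipart I d) + finrank K (qdeg I d) =
      finrank K (homogeneousSubmodule (Fin n) K d) := by
  have e := rank_null (Ideal.Quotient.mkₐ K I).toLinearMap (homogeneousSubmodule (Fin n) K d)
  have : homogeneousSubmodule (Fin n) K d ⊓ LinearMap.ker (Ideal.Quotient.mkₐ K I).toLinearMap =
      P200.ipart I d := by
    ext g
    simp [P200.ipart, Ideal.Quotient.eq_zero_iff_mem, and_comm]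
  rw [this] at e
  exact e

theorem betti_le (I J : Ideal (MvPolynomial (Fin n) K))
    (h1 : ∀ d, finrank K (P200.ipart J d) = finrank K (P200.ipart I d))
    (h2 : ∀ p j, tt (mX K n) (homogeneousSubmodule (Fin n) K) (P200.ipart I) p j ≤
      tt (mX K n) (homogeneousSubmodule (Fin n) K) (P200.ipart J) p j) (p j : ℕ) :
    betti I p j ≤ betti J p j := by
  have hb : ∀ p, finrank K (bdry J p j) ≤ finrank K (bdry I p j) := fun p => by
    have := bdry_eq I p j
    have := bdry_eq J p j
    have := h2 p j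
    omega
  have hc : finrank K (ch n (qdeg I) p j) = finrank K (ch n (qdeg J) p j) := by
    rw [finrank_ch, finrank_ch]
    have := qdeg_eq I (j - p)
    have := qdeg_eq J (j - p)
    have := h1 (j - p)
    rw [show finrank K (qdeg I (j - p)) = finrank K (qdeg J (j - p)) by omega]
  have hd : finrank K ((ch n (qdeg J) p j).map (qkos J)) ≤
      finrank K ((ch n (qdeg I) p j).map (qkos I)) := by
    cases p with
    | zero =>
      rw [qkos, kos_zero, finrank_bot]
      exact Nat.zero_le _
    | succ p => exact hb p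
  have := betti_eq I p j
  have := betti_eq J p j
  have := hb p
  omega

end betti

end Vale.Agent.P200L
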