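import Vale.Agent.P200L.Mod

/-! The twisted change of the last variable. -/

namespace Vale.Agent.P200L

open Module P200

variable {n : ℕ}

section gauss
variable {k : Type*} [Field k]

/-- Gauss binomial coefficients -/
def Qc (ζ : k) : ℕ → ℕ → k
  | 0 => fun _ => 1
  | s + 1 => fun r => Nat.rec 1 (fun r x => Qc ζ s (r + 1) + ζ ^ (s + 1) * x) r

lemma Qc_l (ζ : k) (r : ℕ) : Qc ζ 0 r = 1 := rfl

lemma Qc_r (ζ : k) (s : ℕ) : Qc ζ s 0 = 1 := by cases s <;> rfl

lemma Qc_s (ζ : k) (s r : ℕ) :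
    Qc ζ (s + 1) (r + 1) = Qc ζ s (r + 1) + ζ ^ (s + 1) * Qc ζ (s + 1) r := rfl

lemma Qc_rel (ζ : k) (s : ℕ) : ∀ r, (∑ t ∈ Finset.range (r + 1), ζ ^ t) * Qc ζ s (r + 1) =
    (∑ t ∈ Finset.range (s + r + 1), ζ ^ t) * Qc ζ s r := by
  induction s with
  | zero => intro r; rw [Qc_l, Qc_l, Nat.zero_add]
  | succ s ih =>
    intro r
    induction r with
    | zero =>
      have := ih 0
      rw [Qc_r, Nat.add_zero] at this
      rw [Qc_s, Qc_r, Nat.add_zero, Finset.sum_range_succ _ (s + 1), mul_add, this]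
      simp
    | succ r ih2 =>
      have h1 := ih (r + 1)
      have h2 := Qc_s ζ s r
      rw [show s + 1 + r + 1 = s + (r + 1) + 1 by omega] at ih2
      rw [Qc_s ζ s (r + 1), show s + 1 + (r + 1) + 1 = s + (r + 1) + 1 + 1 by omega,
        Finset.sum_range_succ _ (s + (r + 1) + 1), mul_add, h1, Finset.sum_range_succ _ (r + 1)]
      have h3 : ζ ^ (s + (r + 1) + 1) = ζ ^ (s + 1) * ζ ^ (r + 1) := by ring
      rw [h3]
      linear_combination ζ ^ (s + 1) * ih2 - (∑ t ∈ Finset.range (s + (r + 1) + 1), ζ ^ t) * h2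

lemma Qc_one (ζ : k) (s : ℕ) : Qc ζ s 1 = ∑ t ∈ Finset.range (s + 1), ζ ^ t := by
  simpa [Qc_r] using Qc_rel ζ s 0

lemma Qc_zero {ζ : k} {a : ℕ} (h0 : ∑ r ∈ Finset.range a, ζ ^ r = 0)
    (h1 : ∀ i, 0 < i → i < a → ∑ r ∈ Finset.range i, ζ ^ r ≠ 0) (m : ℕ) :
    ∀ s r, s < a → r < a → s + r = a + m → Qc ζ s r = 0 := by
  induction m with
  | zero =>
    intro s r hs hr h
    obtain ⟨r, rfl⟩ : ∃ r', r = r' + 1 := ⟨r - 1, by omega⟩
    have := Qc_rel ζ s r
    rw [show s + r + 1 = a by omega, h0, zero_mul] at this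
    exact (mul_eq_zero.1 this).resolve_left (h1 _ (by omega) hr)
  | succ m ih =>
    intro s r hs hr h
    obtain ⟨r, rfl⟩ : ∃ r', r = r' + 1 := ⟨r - 1, by omega⟩
    obtain ⟨s, rfl⟩ : ∃ s', s = s' + 1 := ⟨s - 1, by omega⟩
    rw [Qc_s, ih s (r + 1) (by omega) hr (by omega), ih (s + 1) r hs (by omega) (by omega)]
    simp

lemma Qc_sum {V : Type*} [AddCommGroup V] [Module k V] (ζ : k) (E : ℕ → ℕ → V) (m : ℕ) :
    ∑ p ∈ Finset.antidiagonal (m + 1), Qc ζ p.1 p.2 • E p.1 p.2 =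
      ∑ p ∈ Finset.antidiagonal m, Qc ζ p.1 p.2 • (E (p.1 + 1) p.2 + ζ ^ p.1 • E p.1 (p.2 + 1)) := by
  have e : ∀ p ∈ Finset.antidiagonal (m + 1), Qc ζ p.1 p.2 • E p.1 p.2 =
      (if p.1 = 0 then 0 else Qc ζ (p.1 - 1) p.2) • E p.1 p.2 +
        (if p.2 = 0 then 0 else ζ ^ p.1 * Qc ζ p.1 (p.2 - 1)) • E p.1 p.2 := by
    rintro ⟨s, r⟩ hp
    rw [← add_smul]
    congr 1
    have := Finset.mem_antidiagonal.1 hp
    rcases s with _ | s <;> rcases r with _ | r
    · omega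
    · simp [Qc_l]
    · simp [Qc_r]
    · simp [Qc_s]
  rw [Finset.sum_congr rfl e, Finset.sum_add_distrib, Finset.Nat.sum_antidiagonal_succ,
    Finset.Nat.sum_antidiagonal_succ' (n := m)]
  simp [smul_add, Finset.sum_add_distrib, smul_smul, mul_comm]

end gauss

/-- the exponent with prescribed last entry and raised entry `l` -/
noncomputable def Qe (l : Fin n) (β : Fin (n + 1) →₀ ℕ) (s r : ℕ) : Fin (n + 1) →₀ ℕ :=
  β.erase (Fin.last n) + Finsupp.single (Fin.last n) s + Finsupp.single l.castSucc r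

lemma Qe_last (l : Fin n) (β : Fin (n + 1) →₀ ℕ) (s r : ℕ) : Qe l β s r (Fin.last n) = s := by
  simp [Qe, Finsupp.single_apply, (Fin.castSucc_lt_last l).ne]

lemma Qe_cast (l i : Fin n) (β : Fin (n + 1) →₀ ℕ) (s r : ℕ) :
    Qe l β s r i.castSucc = β i.castSucc + if l = i then r else 0 := by
  simp [Qe, Finsupp.single_apply, (Fin.castSucc_lt_last i).ne, (Fin.castSucc_lt_last i).ne']

lemma Qe_ext {β γ : Fin (n + 1) →₀ ℕ} (h1 : β (Fin.last n) = γ (Fin.last n))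
    (h2 : ∀ i : Fin n, β i.castSucc = γ i.castSucc) : β = γ := by
  ext i
  induction i using Fin.lastCases with
  | last => exact h1
  | cast i => exact h2 i

lemma Qe_s1 (i : Fin n) (m : ℕ) : (Finsupp.single (Fin.last n) m : Fin (n + 1) →₀ ℕ) i.castSucc = 0 :=
  Finsupp.single_eq_of_ne (Fin.castSucc_lt_last i).ne

lemma Qe_s2 (i : Fin n) (m : ℕ) : (Finsupp.single i.castSucc m : Fin (n + 1) →₀ ℕ) (Fin.last n) = 0 :=
  Finsupp.single_eq_of_ne (Fin.castSucc_lt_last i).ne'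

lemma Qe_deg (l : Fin n) (β : Fin (n + 1) →₀ ℕ) {s r : ℕ} (h : s + r = β (Fin.last n)) :
    (Qe l β s r).degree = β.degree := by
  simp only [Finsupp.degree_eq_sum, Fin.sum_univ_castSucc, Qe_last, Qe_cast,
    Finset.sum_add_distrib, Finset.sum_ite_eq, Finset.mem_univ, if_true]
  omega

theorem qop {k : Type*} [Field k] (a : Fin (n + 1) → ℕ) (l : Fin n)
    (hl : a l.castSucc ≤ a (Fin.last n)) (hg : Good k (a (Fin.last n))) :
    ∃ Ψ M τ : ((Fin (n + 1) →₀ ℕ) →₀ k) →ₗ[k] ((Fin (n + 1) →₀ ℕ) →₀ k),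
      (∀ v, M v = sh k (n + 1) (Fin.last n) v + sh k (n + 1) l.castSucc (τ v)) ∧
      (∀ v, (τ v).support ⊆ v.support) ∧
      (∀ (i : Fin n) v, τ (sh k (n + 1) i.castSucc v) = sh k (n + 1) i.castSucc (τ v)) ∧
      (∀ v, Ψ (sh k (n + 1) (Fin.last n) v) = M (Ψ v)) ∧
      (∀ (i : Fin n) v, Ψ (sh k (n + 1) i.castSucc v) = sh k (n + 1) i.castSucc (Ψ v)) ∧
      (∀ d, ∀ v ∈ Pd k (n + 1) d, Ψ v ∈ Pd k (n + 1) d) ∧
      (∀ β γ, Ψ (Finsupp.single β 1) γ ≠ 0 → γ = β ∨ γ (Fin.last n) < β (Fin.last n)) ∧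
      (∀ β, Ψ (Finsupp.single β 1) β = 1) ∧
      (∀ γ : Fin (n + 1) →₀ ℕ, γ (Fin.last n) + 1 < a (Fin.last n) →
        Ψ (Finsupp.single (γ + Finsupp.single (Fin.last n) 1) 1)
          (γ + Finsupp.single l.castSucc 1) ≠ 0) ∧
      (∀ β γ, Out a β → Ψ (Finsupp.single β 1) γ ≠ 0 → Out a γ) := by
  classical
  obtain ⟨ζ, h0, h1⟩ := hg
  set τ : ((Fin (n + 1) →₀ ℕ) →₀ k) →ₗ[k] ((Fin (n + 1) →₀ ℕ) →₀ k) :=
    Finsupp.linearCombination k fun β => ζ ^ β (Fin.last n) • Finsupp.single β (1 : k) with hτ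
  set Ψ : ((Fin (n + 1) →₀ ℕ) →₀ k) →ₗ[k] ((Fin (n + 1) →₀ ℕ) →₀ k) :=
    Finsupp.linearCombination k fun β => ∑ p ∈ Finset.antidiagonal (β (Fin.last n)),
      Qc ζ p.1 p.2 • Finsupp.single (Qe l β p.1 p.2) (1 : k) with hΨ
  have τ1 : ∀ β, τ (Finsupp.single β 1) = ζ ^ β (Fin.last n) • Finsupp.single β (1 : k) :=
    fun β => by rw [hτ, Finsupp.linearCombination_single, one_smul]
  have Ψ1 : ∀ β, Ψ (Finsupp.single β 1) = ∑ p ∈ Finset.antidiagonal (β (Fin.last n)),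
      Qc ζ p.1 p.2 • Finsupp.single (Qe l β p.1 p.2) (1 : k) :=
    fun β => by rw [hΨ, Finsupp.linearCombination_single, one_smul]
  have s1 : ∀ i β, sh k (n + 1) i (Finsupp.single β 1) =
      Finsupp.single (β + Finsupp.single i 1) (1 : k) := fun i β => Finsupp.mapDomain_single
  have ext : ∀ f g : ((Fin (n + 1) →₀ ℕ) →₀ k) →ₗ[k] ((Fin (n + 1) →₀ ℕ) →₀ k),
      (∀ β, f (Finsupp.single β 1) = g (Finsupp.single β 1)) → ∀ v, f v = g v :=
    fun f g h v => LinearMap.congr_fun (Finsupp.lhom_ext' fun β => LinearMap.ext_ring (h β)) v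
  have key : ∀ β γ, Ψ (Finsupp.single β 1) γ ≠ 0 →
      ∃ s r, s + r = β (Fin.last n) ∧ Qc ζ s r ≠ 0 ∧ γ = Qe l β s r := fun β γ h => by
    rw [Ψ1, Finsupp.finsetSum_apply] at h
    obtain ⟨p, hp, h2⟩ := Finset.exists_ne_zero_of_sum_ne_zero h
    rw [Finsupp.smul_apply, smul_eq_mul] at h2
    exact ⟨p.1, p.2, Finset.mem_antidiagonal.1 hp, left_ne_zero_of_mul h2,
      (Finsupp.single_apply_ne_zero.1 (right_ne_zero_of_mul h2)).1⟩
  have val : ∀ (β : Fin (n + 1) →₀ ℕ) s r, s + r = β (Fin.last n) →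
      Ψ (Finsupp.single β 1) (Qe l β s r) = Qc ζ s r := fun β s r h => by
    rw [Ψ1, Finsupp.finsetSum_apply, Finset.sum_eq_single (s, r)]
    · simp
    · intro p hp hne
      rw [Finsupp.smul_apply, Finsupp.single_eq_of_ne, smul_zero]
      intro e
      have e1 := congrArg (fun x => x (Fin.last n)) e
      simp only [Qe_last] at e1
      have := Finset.mem_antidiagonal.1 hp
      exact hne (Prod.ext e1.symm (by omega))
    · intro h'
      exact absurd (Finset.mem_antidiagonal.2 h) h'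
  have self : ∀ β : Fin (n + 1) →₀ ℕ, Qe l β (β (Fin.last n)) 0 = β := fun β =>
    Qe_ext (Qe_last _ _ _ _) fun i => by simp [Qe_cast]
  refine ⟨Ψ, sh k (n + 1) (Fin.last n) + sh k (n + 1) l.castSucc ∘ₗ τ, τ, fun v => rfl, fun v => ?_,
    fun i => ext (τ ∘ₗ sh k (n + 1) i.castSucc) (sh k (n + 1) i.castSucc ∘ₗ τ) fun β => ?_,
    ext (Ψ ∘ₗ sh k (n + 1) (Fin.last n)) ((_ + _) ∘ₗ Ψ) fun β => ?_,
    fun i => ext (Ψ ∘ₗ sh k (n + 1) i.castSucc) (sh k (n + 1) i.castSucc ∘ₗ Ψ) fun β => ?_,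
    fun d v hv => ?_, fun β γ h => ?_, fun β => ?_, fun γ h => ?_, fun β γ h h' => ?_⟩
  · have : ∀ γ, τ v γ = ζ ^ γ (Fin.last n) * v γ := fun γ => by
      induction v using Finsupp.induction_linear with
      | zero => simp
      | add x y hx hy => rw [map_add, Finsupp.add_apply, Finsupp.add_apply, hx, hy, mul_add]
      | single β c =>
        rw [hτ, Finsupp.linearCombination_single]
        by_cases e : β = γ
        · simp [e, mul_comm]
        · simp [Finsupp.single_eq_of_ne (Ne.symm e)]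
    intro γ hγ
    rw [Finsupp.mem_support_iff] at hγ ⊢
    rw [this] at hγ
    exact right_ne_zero_of_mul hγ
  · rw [LinearMap.comp_apply, LinearMap.comp_apply, s1, τ1, τ1, map_smul, s1, Finsupp.add_apply,
      Qe_s2, add_zero]
  · rw [LinearMap.comp_apply, LinearMap.comp_apply, s1, Ψ1, Ψ1, Finsupp.add_apply,
      Finsupp.single_eq_same, Qc_sum ζ fun s r => Finsupp.single
        (Qe l (β + Finsupp.single (Fin.last n) 1) s r) (1 : k), map_sum]
    refine Finset.sum_congr rfl fun p _ => ?_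
    rw [map_smul, LinearMap.add_apply, LinearMap.comp_apply, s1, τ1, map_smul, s1, Qe_last]
    congr 3
    · exact Qe_ext (by simp [Qe_last]) fun i => by simp [Qe_cast, Qe_s1]
    · congr 1
      refine Qe_ext (by simp [Qe_last, Qe_s2]) fun i => ?_
      simp only [Qe_cast, Finsupp.add_apply, Qe_s1]
      simp only [Finsupp.single_apply, Fin.castSucc_inj]
      split_ifs <;> omega
  · rw [LinearMap.comp_apply, LinearMap.comp_apply, s1, Ψ1, Ψ1, Finsupp.add_apply, Qe_s2, add_zero,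
      map_sum]
    refine Finset.sum_congr rfl fun p _ => ?_
    rw [map_smul, s1]
    congr 2
    refine Qe_ext (by simp [Qe_last, Qe_s2]) fun j => ?_
    simp only [Qe_cast, Finsupp.add_apply]
    omega
  · rw [← Finsupp.sum_single v, Finsupp.sum, map_sum]
    refine Submodule.sum_mem _ fun β hβ => ?_
    rw [← mul_one (v β), ← smul_eq_mul, ← Finsupp.smul_single, map_smul]
    refine Submodule.smul_mem _ _ fun γ hγ => ?_
    obtain ⟨s, r, e1, -, rfl⟩ := key β γ (Finsupp.mem_support_iff.1 hγ)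
    rw [Finset.mem_coe, mem_expo, Qe_deg l β e1]
    exact mem_expo.1 (hv hβ)
  · obtain ⟨s, r, e1, -, rfl⟩ := key β γ h
    rcases Nat.eq_zero_or_pos r with rfl | hr
    · left
      rw [show s = β (Fin.last n) from e1, self]
    · right
      rw [Qe_last]
      omega
  · have := val β (β (Fin.last n)) 0 rfl
    rwa [self, Qc_r] at this
  · have := val (γ + Finsupp.single (Fin.last n) 1) (γ (Fin.last n)) 1 (by simp)
    rw [show Qe l (γ + Finsupp.single (Fin.last n) 1) (γ (Fin.last n)) 1 =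
      γ + Finsupp.single l.castSucc 1 from Qe_ext (by simp [Qe_last, Qe_s2]) fun i => by
        simp [Qe_cast, Qe_s1, Finsupp.single_apply]] at this
    rw [this, Qc_one]
    exact h1 _ (by omega) h
  · obtain ⟨s, r, e1, e2, rfl⟩ := key β γ h'
    obtain ⟨i, hi⟩ := h
    induction i using Fin.lastCases with
    | cast i => exact ⟨i.castSucc, by rw [Qe_cast]; omega⟩
    | last =>
      by_cases c1 : a (Fin.last n) ≤ s
      · exact ⟨Fin.last n, by rwa [Qe_last]⟩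
      by_cases c2 : a (Fin.last n) ≤ r
      · exact ⟨l.castSucc, by rw [Qe_cast, if_pos rfl]; omega⟩
      exact absurd (Qc_zero h0 h1 (β (Fin.last n) - a (Fin.last n)) s r (by omega) (by omega)
        (by omega)) e2

end Vale.Agent.P200L
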